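import Vale.Agent.P025.R2.H440.Defs
import Vale.Agent.P025.R2.H704.End

/-! # The contradiction at small scales -/

open IntermediateField Polynomial

namespace P025H281

open P025H641 P025H440

universe u v w

variable {p : ℕ} [Fact p.Prime] {k : Type u} {K : Type v} [Field k] [Field K] [Algebra k K]
  [CharZero k] {s : Gal(constClosure k K/k) →* Gal(maxUnr k K/K)}
  {G : Subgroup Gal(constClosure k K/k)} {k' : Type w} [Field k'] [CharZero k']
  [Algebra k' (maxUnr k K)] [Algebra ℚ_[p] k'] [FiniteDimensional ℚ_[p] k']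
  {O : ValuationSubring (maxUnr k K)}

/-- A4: the contradiction at small scales -/
theorem scale_contra (h : Ctx p s G k' O) (hp2 : p ≠ 2) {ζ : k'} (hζ : IsPrimitiveRoot ζ p)
    {m : ℕ} (hm : 0 < m) (hpm : p ∣ m) (a b : ℕ)
    (ha : precision (Module.finrank ℚ_[p] k') 5 + 7 ≤ a) (hb : 7 ≤ b) (γ : O.ValueGroup)
    (hγ1 : γ ≤ 1) (N₀ : ℕ) (hγ0 : O.valuation (p : maxUnr k K) ^ N₀ ≤ γ)
    (hall : ∀ ρ : ℝ, 0 < ρ → ∃ t : maxUnr k K, IsState s G k' O t ∧ O.valuation t = γ ∧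
      RDs p (Cusp k' m t) ((p : ℝ) ^ a)⁻¹ ρ ((p : ℝ) ^ b)) : False := by
  classical
  let inst1 : NontriviallyNormedField k' := spectralNorm.nontriviallyNormedField ℚ_[p] k'
  have hu : IsUltrametricDist k' :=
    IsUltrametricDist.isUltrametricDist_of_isNonarchimedean_norm isNonarchimedean_spectralNorm
  have hn : ∀ x : ℚ_[p], ‖algebraMap ℚ_[p] k' x‖ = ‖x‖ := fun x => spectralNorm_extends x
  have hproper : ProperSpace k' := by
    let _ : NormedAlgebra ℚ_[p] k' := spectralNorm.normedAlgebra ℚ_[p] k'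
    exact FiniteDimensional.proper ℚ_[p] k'
  have hpp : p.Prime := Fact.out
  have hq : (1 : ℝ) < p := by exact_mod_cast hpp.one_lt
  have hq0 : (0 : ℝ) < p := by linarith
  have hpn : ‖(p : k')‖ = (p : ℝ)⁻¹ := by
    rw [← map_natCast (algebraMap ℚ_[p] k'), hn, Padic.norm_p]
  have hpM : algebraMap k' (maxUnr k K) (p : k') = (p : maxUnr k K) := map_natCast _ p
  have hp1 : O.valuation (p : maxUnr k K) ≤ 1 := by
    rw [ValuationSubring.valuation_le_one_iff, ← hpM, h.const]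
    show ‖(p : k')‖ ≤ 1
    rw [hpn]
    exact inv_le_one_of_one_le₀ hq.le
  have hpk0 : (p : k') ≠ 0 := Nat.cast_ne_zero.2 hpp.ne_zero
  have hpM0 : (p : maxUnr k K) ≠ 0 := by
    rw [← hpM]
    exact (_root_.map_ne_zero _).2 hpk0
  have hvp0 : 0 < O.valuation (p : maxUnr k K) := by
    rw [zero_lt_iff, ne_eq, map_eq_zero]
    exact hpM0
  -- the exponent
  obtain ⟨J, hJ1, hJ2⟩ : ∃ J : ℕ, O.valuation (p : maxUnr k K) ^ J ≤ γ ∧
      O.valuation (p : maxUnr k K) * γ ≤ O.valuation (p : maxUnr k K) ^ J := by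
    have hex : ∃ j : ℕ, O.valuation (p : maxUnr k K) ^ j ≤ γ := ⟨N₀, hγ0⟩
    refine ⟨Nat.find hex, Nat.find_spec hex, ?_⟩
    rcases Nat.eq_zero_or_pos (Nat.find hex) with h0 | h0
    · rw [h0, pow_zero]
      exact mul_le_one' hp1 hγ1
    · obtain ⟨i, hi⟩ : ∃ i, Nat.find hex = i + 1 := ⟨Nat.find hex - 1, by omega⟩
      have h1 : ¬ O.valuation (p : maxUnr k K) ^ i ≤ γ := Nat.find_min hex (by omega)
      rw [hi, pow_succ']
      exact mul_le_mul_right (not_le.1 h1).le _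
  set P := precision (Module.finrank ℚ_[p] k') 5 with hP
  -- the state at the small scale
  have hρ : (0 : ℝ) < ((p : ℝ) ^ (J + P))⁻¹ := by positivity
  obtain ⟨t, ht, htγ, hRD⟩ := hall _ hρ
  set Λ : maxUnr k K := (p : maxUnr k K) ^ J with hΛ
  have hΛ0 : Λ ≠ 0 := pow_ne_zero _ hpM0
  have hΛk : algebraMap k' (maxUnr k K) ((p : k') ^ J) = Λ := by rw [map_pow, hpM]
  have hpJ0 : (p : k') ^ J ≠ 0 := pow_ne_zero _ hpk0
  have hvΛ : O.valuation Λ = O.valuation (p : maxUnr k K) ^ J := map_pow _ _ _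
  have hvΛ0 : 0 < O.valuation Λ := by
    rw [zero_lt_iff, ne_eq, map_eq_zero]
    exact hΛ0
  have hγpos : 0 < γ := lt_of_lt_of_le (by rw [hvΛ] at hvΛ0; exact hvΛ0) hJ1
  -- cusps of the rescaled element
  have hcusp : ∀ c ∈ Cusp k' m t, c / (p : k') ^ J ∈ Cusp k' m (t / Λ) := by
    rintro c ⟨g, hg⟩
    obtain ⟨μ, hμ⟩ := IsAlgClosed.exists_pow_nat_eq (Λ : AlgebraicClosure K) hm
    have hμint : IsIntegral k μ := by
      apply isIntegral_of_pow' hm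
      rw [hμ]
      exact isIntegral_coe.2 (hΛk ▸ h.base.alg _)
    refine ⟨g / ⟨μ, mem_maxUnr_of_const _ hμint⟩, ?_⟩
    have h1 : (⟨μ, mem_maxUnr_of_const _ hμint⟩ : maxUnr k K) ^ m = Λ := Subtype.ext hμ
    rw [div_pow, hg, h1, map_div₀, hΛk, sub_div]
  -- approximation by one cusp
  have hone : ∀ x : k', ‖x‖ ≤ (p : ℝ) ^ 7 → ∃ c ∈ Cusp k' m (t / Λ),
      ‖x - c‖ ≤ ((p : ℝ) ^ P)⁻¹ := by
    intro x hx
    have hnJ : ‖(p : k') ^ J‖ = ((p : ℝ) ^ J)⁻¹ := by rw [norm_pow, hpn, inv_pow]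
    have key : ∃ c ∈ Cusp k' m t, ‖c - (p : k') ^ J * x‖ ≤ ((p : ℝ) ^ J)⁻¹ * ((p : ℝ) ^ P)⁻¹ := by
      by_cases hx1 : ((p : ℝ) ^ (J + P))⁻¹ ≤ ‖(p : k') ^ J * x‖
      · have hJ1' : ((p : ℝ) ^ J)⁻¹ ≤ 1 := inv_le_one_of_one_le₀ (one_le_pow₀ hq.le)
        have h2 : ‖(p : k') ^ J * x‖ ≤ ((p : ℝ) ^ J)⁻¹ * (p : ℝ) ^ 7 := by
          rw [norm_mul, hnJ]
          exact mul_le_mul_of_nonneg_left hx (by positivity)
        have h3 : ‖(p : k') ^ J * x‖ ≤ (p : ℝ) ^ b := by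
          refine h2.trans ?_
          calc ((p : ℝ) ^ J)⁻¹ * (p : ℝ) ^ 7 ≤ 1 * (p : ℝ) ^ b :=
                mul_le_mul hJ1' (pow_le_pow_right₀ hq.le hb) (by positivity) zero_le_one
            _ = (p : ℝ) ^ b := one_mul _
        obtain ⟨c, hc, hcx⟩ := hRD _ hx1 h3
        refine ⟨c, hc, ?_⟩
        change ‖c - (p : k') ^ J * x‖ ≤ ((p : ℝ) ^ a)⁻¹ * ‖(p : k') ^ J * x‖ at hcx
        refine hcx.trans ((mul_le_mul_of_nonneg_left h2 (by positivity)).trans ?_)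
        have h4 : ((p : ℝ) ^ a)⁻¹ * (p : ℝ) ^ 7 ≤ ((p : ℝ) ^ P)⁻¹ := by
          have h5 : (p : ℝ) ^ (P + 7) ≤ (p : ℝ) ^ a := pow_le_pow_right₀ hq.le ha
          rw [inv_mul_le_iff₀ (by positivity)]
          calc (p : ℝ) ^ 7 = (p : ℝ) ^ (P + 7) * ((p : ℝ) ^ P)⁻¹ := by
                rw [pow_add]
                field_simp
            _ ≤ (p : ℝ) ^ a * ((p : ℝ) ^ P)⁻¹ :=
                mul_le_mul_of_nonneg_right h5 (by positivity)
        calc ((p : ℝ) ^ a)⁻¹ * (((p : ℝ) ^ J)⁻¹ * (p : ℝ) ^ 7) =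
              ((p : ℝ) ^ J)⁻¹ * (((p : ℝ) ^ a)⁻¹ * (p : ℝ) ^ 7) := by ring
          _ ≤ ((p : ℝ) ^ J)⁻¹ * ((p : ℝ) ^ P)⁻¹ :=
              mul_le_mul_of_nonneg_left h4 (by positivity)
      · push Not at hx1
        have hz : ‖(p : k') ^ (J + P)‖ = ((p : ℝ) ^ (J + P))⁻¹ := by rw [norm_pow, hpn, inv_pow]
        obtain ⟨c, hc, hcx⟩ := hRD ((p : k') ^ (J + P)) hz.ge
          (hz.le.trans ((inv_le_one_of_one_le₀ (one_le_pow₀ hq.le)).trans (one_le_pow₀ hq.le)))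
        change ‖c - (p : k') ^ (J + P)‖ ≤ ((p : ℝ) ^ a)⁻¹ * ‖(p : k') ^ (J + P)‖ at hcx
        refine ⟨c, hc, ?_⟩
        have h6 : ‖c - (p : k') ^ (J + P)‖ ≤ ((p : ℝ) ^ (J + P))⁻¹ := by
          refine hcx.trans ?_
          rw [hz]
          have h7 : ((p : ℝ) ^ a)⁻¹ ≤ 1 := inv_le_one_of_one_le₀ (one_le_pow₀ hq.le)
          have h8 : (0 : ℝ) ≤ ((p : ℝ) ^ (J + P))⁻¹ := by positivity
          nlinarith
        have h9 : c - (p : k') ^ J * x =
            (c - (p : k') ^ (J + P)) + ((p : k') ^ (J + P) - (p : k') ^ J * x) := by ring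
        rw [h9, ← mul_inv, ← pow_add]
        refine (norm_add_le_max' _ _).trans (max_le h6 ?_)
        exact (norm_sub_le_max _ _).trans (max_le hz.le hx1.le)
    obtain ⟨c, hc, hcx⟩ := key
    refine ⟨c / (p : k') ^ J, hcusp c hc, ?_⟩
    have h1 : x - c / (p : k') ^ J = -((c - (p : k') ^ J * x) / (p : k') ^ J) := by
      field_simp
      ring
    rw [h1, norm_neg, norm_div, hnJ, div_inv_eq_mul]
    have hJpos : (0 : ℝ) < (p : ℝ) ^ J := by positivity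
    calc ‖c - (p : k') ^ J * x‖ * (p : ℝ) ^ J ≤
          (((p : ℝ) ^ J)⁻¹ * ((p : ℝ) ^ P)⁻¹) * (p : ℝ) ^ J :=
          mul_le_mul_of_nonneg_right hcx hJpos.le
      _ = ((p : ℝ) ^ P)⁻¹ := by field_simp
  -- a finite set of cusps
  obtain ⟨N, hNsub, hNfin, hNcov⟩ := finite_cover_balls_of_compact
    (isCompact_closedBall (0 : k') ((p : ℝ) ^ 7)) (e := ((p : ℝ) ^ P)⁻¹) (by positivity)
  choose! f hf1 hf2 using hone
  have hNn : ∀ x ∈ N, ‖x‖ ≤ (p : ℝ) ^ 7 := fun x hx => by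
    have := hNsub hx
    rwa [mem_closedBall_zero_iff] at this
  refine P025H704.end_contra h hp2 hζ hm hpm (t / Λ) ?_ ?_ ?_ ?_ ?_
    (hNfin.toFinset.image f) ?_ ?_
  · intro σ hσ
    rw [map_div₀, ht.fix σ hσ, hΛ, map_pow, map_natCast]
  · intro c hc
    have h1 : t = algebraMap k' (maxUnr k K) (c * (p : k') ^ J) := by
      rw [_root_.map_mul, hΛk, ← hc, div_mul_cancel₀ _ hΛ0]
    have h2 := ht.near (c * (p : k') ^ J)
    rw [← h1, sub_self, map_zero, htγ] at h2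
    exact absurd h2 (not_le.2 hγpos)
  · intro x
    have h1 := ht.near (x * (p : k') ^ J)
    have h2 : algebraMap k' (maxUnr k K) (x * (p : k') ^ J) =
        algebraMap k' (maxUnr k K) x * Λ := by rw [_root_.map_mul, hΛk]
    have h3 : t - algebraMap k' (maxUnr k K) x * Λ =
        (t / Λ - algebraMap k' (maxUnr k K) x) * Λ := by
      rw [sub_mul, div_mul_cancel₀ _ hΛ0]
    rw [h2, h3, _root_.map_mul, _root_.map_mul] at h1
    exact (mul_le_mul_iff_left₀ hvΛ0).1 h1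
  · rw [map_div₀, htγ, hvΛ, one_le_div₀ (hvΛ ▸ hvΛ0)]
    exact hJ1
  · rw [_root_.map_mul, map_div₀, htγ, hvΛ, ← mul_div_assoc, div_le_one₀ (hvΛ ▸ hvΛ0)]
    exact hJ2
  · intro c hc
    obtain ⟨x, hx, rfl⟩ := Finset.mem_image.1 hc
    exact hf1 x (hNn x (hNfin.mem_toFinset.1 hx))
  · intro x hx
    have hx' : x ∈ Metric.closedBall (0 : k') ((p : ℝ) ^ 7) := by
      rw [mem_closedBall_zero_iff]
      exact hx
    obtain ⟨y, hy, hxy⟩ := Set.mem_iUnion₂.1 (hNcov hx')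
    refine ⟨f y, Finset.mem_image_of_mem f (hNfin.mem_toFinset.2 hy), ?_⟩
    show ‖x - f y‖ ≤ _
    have h1 : x - f y = (x - y) + (y - f y) := by ring
    rw [h1]
    refine (norm_add_le_max' _ _).trans (max_le ?_ (hf2 y (hNn y hy)))
    rw [Metric.mem_ball, dist_eq_norm] at hxy
    exact hxy.le

end P025H281
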