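import Vale.Agent.P025.R2.H281.Tame

/-! # Wild inertia is the pro-`p` Sylow subgroup of inertia, and the tame relation -/

namespace P025H281

variable {p : ℕ} {k Ω : Type*} [Field k] [NormedField Ω] [IsUltrametricDist Ω] [Algebra k Ω]

/-- `φ` acts on residues as the power map with exponent `Q` -/
def IsFrob (φ : Gal(Ω/k)) (Q : ℕ) : Prop := ∀ x : Ω, ‖x‖ ≤ 1 → Cg (φ x) (x ^ Q)

omit [IsUltrametricDist Ω] in
lemma pow_mem_of_mem {H : Subgroup Gal(Ω/k)} {σ : Gal(Ω/k)} (h : σ ∈ H) (n : ℕ) : σ ^ n ∈ H :=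
  H.pow_mem h n

/-! ### characters of the inertia group -/

omit [IsUltrametricDist Ω] in
lemma norm_div_eq_one {σ : Gal(Ω/k)} {x : Ω} (h : ‖σ x‖ = ‖x‖) (hx : x ≠ 0) : ‖σ x / x‖ = 1 := by
  rw [norm_div, h, div_self (norm_ne_zero_iff.2 hx)]

lemma chi_mul {σ τ : Gal(Ω/k)} (hσ : σ ∈ inertia k Ω) (hτ : τ ∈ inertia k Ω) {x : Ω}
    (hx : x ≠ 0) : Cg ((σ * τ) x / x) ((σ x / x) * (τ x / x)) := by
  have h1 : (σ * τ) x / x = (σ x / x) * σ (τ x / x) := by
    rw [AlgEquiv.mul_apply, map_div₀]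
    have : σ x ≠ 0 := (map_ne_zero _).2 hx
    field_simp
  rw [h1]
  refine (Cg.refl _).mul ?_ (norm_div_eq_one (hσ.1 x) hx).le (norm_div_eq_one (hτ.1 x) hx).le
  exact hσ.2 _ (norm_div_eq_one (hτ.1 x) hx).le

lemma chi_pow {σ : Gal(Ω/k)} (hσ : σ ∈ inertia k Ω) {x : Ω} (hx : x ≠ 0) (n : ℕ) :
    Cg ((σ ^ n) x / x) ((σ x / x) ^ n) := by
  induction n with
  | zero =>
    simp only [pow_zero, AlgEquiv.one_apply, div_self hx]
    exact Cg.refl _
  | succ n ih =>
    rw [pow_succ', pow_succ']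
    have h1 := norm_div_eq_one (hσ.1 x) hx
    refine (chi_mul hσ (pow_mem hσ n) hx).trans ((Cg.refl _).mul ih h1.le ?_)
    rw [norm_pow, h1, one_pow]

/-- the characters depend only on the norm -/
lemma chi_congr {σ : Gal(Ω/k)} (hσ : σ ∈ inertia k Ω) {x y : Ω} (hx : x ≠ 0) (hy : y ≠ 0)
    (hxy : ‖x‖ = ‖y‖) : Cg (σ x / x) (σ y / y) := by
  have hu : ‖x / y‖ = 1 := by rw [norm_div, hxy, div_self (norm_ne_zero_iff.2 hy)]
  have h1 : σ x / x = (σ (x / y) / (x / y)) * (σ y / y) := by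
    rw [map_div₀]
    have : σ y ≠ 0 := (map_ne_zero _).2 hy
    field_simp
  have h2 : Cg (σ (x / y) / (x / y)) 1 := (show Cg _ _ from hσ.2 _ hu.le).div_one hu
  rw [h1]
  have h3 := h2.mul (Cg.refl (σ y / y)) ((h2.norm_eq norm_one).le)
    (norm_div_eq_one (hσ.1 y) hy).le
  rwa [one_mul] at h3

/-- an element of inertia with trivial characters is wild -/
lemma mem_wild_of_chi {σ : Gal(Ω/k)} (hσ : σ ∈ inertia k Ω)
    (h : ∀ x : Ω, x ≠ 0 → Cg (σ x / x) 1) : σ ∈ wild k Ω := by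
  refine ⟨hσ.1, fun x hx => ?_⟩
  have h1 := h x hx
  unfold Cg at h1
  have h2 : σ x / x - 1 = (σ x - x) / x := by field_simp
  rwa [h2, norm_div, div_lt_one (norm_pos_iff.2 hx)] at h1

lemma chi_of_mem_wild {σ : Gal(Ω/k)} (hσ : σ ∈ wild k Ω) {x : Ω} (hx : x ≠ 0) :
    Cg (σ x / x) 1 := by
  have h2 : σ x / x - 1 = (σ x - x) / x := by field_simp
  unfold Cg
  rw [h2, norm_div, div_lt_one (norm_pos_iff.2 hx)]
  exact hσ.2 x hx

/-- the tame relation -/
theorem tame_rel (hG : ∀ (σ : Gal(Ω/k)) (x : Ω), ‖σ x‖ = ‖x‖) {φ : Gal(Ω/k)} {Q : ℕ}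
    (hφ : IsFrob φ Q) {σ : Gal(Ω/k)} (hσ : σ ∈ inertia k Ω) :
    φ * σ * φ⁻¹ * (σ ^ Q)⁻¹ ∈ wild k Ω := by
  have hn := inertia_normal hG
  have ha : φ * σ * φ⁻¹ ∈ inertia k Ω := hn.conj_mem σ hσ φ
  have hb : σ ^ Q ∈ inertia k Ω := pow_mem hσ Q
  refine mem_wild_of_chi (mul_mem ha (inv_mem hb)) fun x hx => ?_
  -- the two characters agree
  have key : ∀ y : Ω, y ≠ 0 → Cg ((φ * σ * φ⁻¹) y / y) ((σ ^ Q) y / y) := by
    intro y hy
    have hz : φ⁻¹ y ≠ 0 := (map_ne_zero _).2 hy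
    have h1 : (φ * σ * φ⁻¹) y / y = φ (σ (φ⁻¹ y) / φ⁻¹ y) := by
      rw [map_div₀, inv_app]
      rfl
    have h2 : ‖σ (φ⁻¹ y) / φ⁻¹ y‖ = 1 := norm_div_eq_one (hσ.1 _) hz
    have h3 : Cg (σ (φ⁻¹ y) / φ⁻¹ y) (σ y / y) := chi_congr hσ hz hy (hG _ _)
    have h4 : ‖σ y / y‖ = 1 := norm_div_eq_one (hσ.1 _) hy
    rw [h1]
    exact ((hφ _ h2.le).trans (h3.pow h4.le Q)).trans (chi_pow hσ hy Q).symm
  set y := (σ ^ Q)⁻¹ x with hy
  have hy0 : y ≠ 0 := (map_ne_zero _).2 hx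
  have h1 := key y hy0
  have h2 : (σ ^ Q) y = x := inv_app _ _
  have h3 : (φ * σ * φ⁻¹ * (σ ^ Q)⁻¹) x = (φ * σ * φ⁻¹) y := rfl
  have h4 := h1.div_one (norm_div_eq_one (hb.1 y) hy0)
  rw [h2] at h4
  rw [h3]
  have h5 : (φ * σ * φ⁻¹) y / y / (x / y) = (φ * σ * φ⁻¹) y / x := by
    field_simp
  rwa [h5] at h4

variable [Fact p.Prime] (hp : ‖(p : Ω)‖ < 1)

section

variable [IsGalois k Ω]

include hp in
/-- the wild inertia group is pro-`p` -/
theorem wild_pro : IsPro p (wild k Ω) := by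
  have hpp : p.Prime := Fact.out
  intro N _ hN
  have hfin : Finite (Gal(Ω/k) ⧸ N) := Subgroup.quotient_finite_of_isOpen N hN
  rintro ⟨_, σ, hσ, rfl⟩
  -- the order of `σ` modulo `N`
  have hord : IsOfFinOrder (QuotientGroup.mk' N σ) := isOfFinOrder_of_finite _
  obtain ⟨a, m, hm, ham⟩ := Nat.exists_eq_pow_mul_and_not_dvd hord.orderOf_pos.ne' p hpp.ne_one
  refine ⟨a, ?_⟩
  rw [Subtype.ext_iff, SubmonoidClass.coe_pow, OneMemClass.coe_one, ← map_pow,
    QuotientGroup.mk'_apply, QuotientGroup.eq_one_iff]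
  set τ := σ ^ p ^ a with hτ
  have hτw : τ ∈ wild k Ω := pow_mem hσ _
  have hτm : τ ^ m ∈ N := by
    rw [hτ, ← pow_mul, ← QuotientGroup.eq_one_iff, ← QuotientGroup.mk'_apply, map_pow, ← ham,
      pow_orderOf_eq_one]
  have hm0 : m ≠ 0 := by
    rintro rfl
    exact hm (dvd_zero p)
  -- `τ` fixes the fixed field of `N`
  let N' : ClosedSubgroup Gal(Ω/k) := ⟨N, Subgroup.isClosed_of_isOpen N hN⟩
  have hgal := InfiniteGalois.fixingSubgroup_fixedField N'
  have hmem : τ ∈ (IntermediateField.fixedField (N' : Subgroup Gal(Ω/k))).fixingSubgroup := by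
    rw [IntermediateField.mem_fixingSubgroup_iff]
    intro x hx
    have hxN : ∀ g ∈ N, g x = x := fun g hg => (IntermediateField.mem_fixedField_iff _ _).1 hx g hg
    have hper : (τ ^ m) x = x := hxN _ hτm
    -- the sum over the powers
    have hnorm : ∀ z : Ω, z ≠ 0 → ‖(∑ i ∈ Finset.range m, (τ ^ i) z) - m * z‖ < ‖z‖ := by
      intro z hz
      have h1 : (∑ i ∈ Finset.range m, (τ ^ i) z) - m * z =
          ∑ i ∈ Finset.range m, ((τ ^ i) z - z) := by
        rw [Finset.sum_sub_distrib, Finset.sum_const, Finset.card_range, nsmul_eq_mul]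
      rw [h1]
      obtain ⟨i, -, hi⟩ := IsUltrametricDist.exists_norm_finsetSum_le (Finset.range m)
        (fun i => (τ ^ i) z - z)
      refine hi.trans_lt ?_
      exact (pow_mem hτw i : τ ^ i ∈ wild k Ω).2 z hz
    have hmn : ‖(m : Ω)‖ = 1 := norm_natCast_eq_one hpp hp hm
    have hm0' : (m : Ω) ≠ 0 := by
      intro h0
      rw [h0, norm_zero] at hmn
      exact zero_ne_one hmn
    set y := ∑ i ∈ Finset.range m, (τ ^ i) x with hy
    have hyfix : τ y = y := by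
      rw [hy, map_sum]
      have h1 : ∀ i, τ ((τ ^ i) x) = (τ ^ (i + 1)) x := fun i => by
        rw [pow_succ', AlgEquiv.mul_apply]
      simp only [h1]
      have h2 := Finset.sum_range_succ (fun i => (τ ^ i) x) m
      have h3 := Finset.sum_range_succ' (fun i => (τ ^ i) x) m
      rw [hper] at h2
      rw [pow_zero, AlgEquiv.one_apply] at h3
      exact add_right_cancel (h3.symm.trans h2)
    set z := x - y / m with hz
    have hzsum : ∑ i ∈ Finset.range m, (τ ^ i) z = 0 := by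
      have h1 : ∀ i, (τ ^ i) (y / m) = y / m := by
        intro i
        induction i with
        | zero => simp
        | succ i ih =>
          rw [pow_succ', AlgEquiv.mul_apply, ih, map_div₀, hyfix, map_natCast]
      have h2 : ∀ i, (τ ^ i) z = (τ ^ i) x - y / m := fun i => by rw [hz, map_sub, h1]
      simp only [h2]
      rw [Finset.sum_sub_distrib, ← hy, Finset.sum_const, Finset.card_range, nsmul_eq_mul]
      field_simp
      ring
    have hz0 : z = 0 := by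
      by_contra hz0
      have h1 := hnorm z hz0
      rw [hzsum, zero_sub, norm_neg, norm_mul, hmn, one_mul] at h1
      exact lt_irrefl _ h1
    have hxy : x = y / m := sub_eq_zero.1 hz0
    rw [hxy, map_div₀, hyfix, map_natCast]
  have h2 : τ ∈ (N' : Subgroup Gal(Ω/k)) := by
    rw [← hgal]
    exact hmem
  exact h2

include hp in
/-- pro-`p` subgroups of inertia are wild -/
theorem le_wild_of_isPro {P : Subgroup Gal(Ω/k)} (hP : IsPro p P) (hPI : P ≤ inertia k Ω) :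
    P ≤ wild k Ω := by
  have hpp : p.Prime := Fact.out
  intro σ hσ
  refine mem_wild_of_chi (hPI hσ) fun x hx => ?_
  -- an open normal subgroup fixing `x`
  have h1 : IsOpen {τ : Gal(Ω/k) | τ x ∈ ({x} : Set Ω)} := isOpen_apply x _
  obtain ⟨N, hN⟩ := ProfiniteGrp.exist_openNormalSubgroup_sub_open_nhds_of_one h1 (by simp)
  obtain ⟨a, ha⟩ := hP N.toSubgroup N.isOpen' ⟨_, Subgroup.mem_map_of_mem _ hσ⟩
  rw [Subtype.ext_iff, SubmonoidClass.coe_pow, OneMemClass.coe_one, ← map_pow,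
    QuotientGroup.mk'_apply, QuotientGroup.eq_one_iff] at ha
  have h2 : (σ ^ p ^ a) x = x := hN ha
  have h3 := chi_pow (hPI hσ) hx (p ^ a)
  rw [h2, div_self hx] at h3
  exact Cg.of_pow hpp hp (norm_div_eq_one ((hPI hσ).1 x) hx).le h3.symm

include hp in
/-- the wild inertia group is the `p`-Sylow subgroup of the inertia group -/
theorem isSyl_wild : IsSyl p (inertia k Ω) (wild k Ω) := by
  obtain ⟨P, hWP, hP⟩ := exists_isSyl p (H := inertia k Ω) (P₀ := wild k Ω) inertia_closed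
    wild_le_inertia (wild_pro hp)
  have h1 : P = wild k Ω := le_antisymm (le_wild_of_isPro hp hP.pro hP.le) hWP
  rwa [h1] at hP

end

end P025H281
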