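import Vale.Agent.P025.R2.H281.PadicK
import Vale.Agent.P025.R2.H505.ExistG

/-! # Existence of fixed points for the Galois group of a `p`-adic field -/

namespace P025H281

open P025H505 P025H970 Topology

variable (p : ℕ) [Fact p.Prime] (Kb : Type*) [Field Kb] [Algebra ℚ_[p] Kb]
  [Algebra.IsAlgebraic ℚ_[p] Kb] (k : Type*) [Field k] [Algebra k Kb] [Algebra ℚ_[p] k] [IsScalarTower ℚ_[p] k Kb]
variable [FiniteDimensional ℚ_[p] k] [IsGalois k Kb] [IsAlgClosed Kb]
variable {V D E : Type*}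
  [TopologicalSpace V] [CompactSpace V] [T2Space V] [TotallyDisconnectedSpace V]
  [TopologicalSpace D] [CompactSpace D] [T2Space D] [TotallyDisconnectedSpace D]
  [TopologicalSpace E] [CompactSpace E] [T2Space E] [TotallyDisconnectedSpace E]
  [MulAction Gal(Kb/k) V] [ContinuousSMul Gal(Kb/k) V] [MulAction Gal(Kb/k) D]
  [ContinuousSMul Gal(Kb/k) D] [MulAction Gal(Kb/k) E] [ContinuousSMul Gal(Kb/k) E]

/-- the exact condition on values used for uniqueness of fixed edges, in terms of the spectral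
norm -/
def ValK (q : ℕ) (H : Subgroup Gal(Kb/k)) : Prop :=
  ∃ π : Kb, (∀ s ∈ H, s π = π) ∧ π ≠ 0 ∧ spectralNorm ℚ_[p] Kb π < 1 ∧
    ∀ x : Kb, (∀ s ∈ H, s x = x) → spectralNorm ℚ_[p] Kb x ^ q ≠ spectralNorm ℚ_[p] Kb π

/-- existence of fixed points for the Galois group of a `p`-adic field -/
theorem exists_fixed_padic {l : ℕ} [hl : Fact l.Prime] (hlp : l ≠ p)
    {v : E → V} {d : E → D} (hvc : Continuous v) (hdc : Continuous d)
    (hv : ∀ (g : Gal(Kb/k)) (e : E), v (g • e) = g • v e)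
    (hd : ∀ (g : Gal(Kb/k)) (e : E), d (g • e) = g • d e) (hexl : GraphExact l v d)
    (hexp : GraphExact p v d)
    -- from A-UNIQ
    (hU : ∀ (q : ℕ) [Fact q.Prime] (H : Subgroup Gal(Kb/k)), IsClosed (H : Set Gal(Kb/k)) →
      IsPro q H → ValK p Kb k q H →
      ∀ e e' : E, (∀ s : H, s • e = e) → (∀ s : H, s • e' = e') → e = e') :
    ((∃ x : V, ∀ g : Gal(Kb/k), g • x = x) ∨ (∃ y : D, ∀ g : Gal(Kb/k), g • y = y)) ∧
    (∀ x x' : V, (∀ s : wildK p Kb k, s • x = x) → (∀ s : wildK p Kb k, s • x' = x') → x = x') ∧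
    (∀ y y' : D, (∀ s : wildK p Kb k, s • y = y) → (∀ s : wildK p Kb k, s • y' = y') → y = y') ∧
    (∀ (x : V) (y : D), (∀ s : wildK p Kb k, s • x = x) → (∀ s : wildK p Kb k, s • y = y) →
      ∃ e : E, v e = x ∧ d e = y ∧ ∀ g : Gal(Kb/k), g • e = e) := by
  let _ : NormedField Kb := nfK p Kb
  have : IsUltrametricDist Kb := ultraK p Kb
  have hn : ∀ x : Kb, ‖x‖ = spectralNorm ℚ_[p] Kb x := fun _ => rfl
  have h0 := std_padic hn k
  exact exists_fixed_gal (k := k) (Ω := Kb) (l := l) (p := p) h0.isom h0.lt (tame_padic hn hlp)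
    (fun q _ S P hS hP => val_of_isSyl hn q S P hS hP) hvc hdc hv hd hexl hexp
    (fun q _ H hH hHq hval => hU q H hH hHq hval)
end P025H281
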