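import Vale.Agent.P025.R2.H281.Wild

/-! # Roots of unity of order prime to `p`, and Frobenius elements -/

open Polynomial

namespace P025H281

section ring

variable (Ω : Type*) [NormedField Ω] [IsUltrametricDist Ω]

/-- the ring of integers -/
def Oo : Subring Ω where
  carrier := {x | ‖x‖ ≤ 1}
  mul_mem' := fun {a b} ha hb => by
    show ‖a * b‖ ≤ 1
    rw [norm_mul]
    exact mul_le_one₀ ha (norm_nonneg _) hb
  one_mem' := by
    show ‖(1 : Ω)‖ ≤ 1
    rw [norm_one]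
  add_mem' := fun {a b} ha hb => (norm_add_le_mx a b).trans (max_le ha hb)
  zero_mem' := by
    show ‖(0 : Ω)‖ ≤ 1
    rw [norm_zero]
    exact zero_le_one
  neg_mem' := fun {a} ha => by
    show ‖-a‖ ≤ 1
    rw [norm_neg]
    exact ha

/-- the maximal ideal -/
def mm : Ideal (Oo Ω) where
  carrier := {x | ‖(x : Ω)‖ < 1}
  add_mem' := fun {a b} ha hb => (norm_add_le_mx (a : Ω) b).trans_lt (max_lt ha hb)
  zero_mem' := by
    show ‖((0 : Oo Ω) : Ω)‖ < 1
    rw [ZeroMemClass.coe_zero, norm_zero]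
    exact one_pos
  smul_mem' := fun c x hx => by
    show ‖((c * x : Oo Ω) : Ω)‖ < 1
    rw [Subring.coe_mul, norm_mul]
    exact (mul_le_of_le_one_left (norm_nonneg _) c.2).trans_lt hx

instance : (mm Ω).IsPrime where
  ne_top' := by
    rw [Ne, Ideal.eq_top_iff_one]
    intro h
    have : ‖((1 : Oo Ω) : Ω)‖ < 1 := h
    rw [OneMemClass.coe_one, norm_one] at this
    exact lt_irrefl _ this
  mem_or_mem' := by
    intro x y hxy
    have h1 : ‖(x : Ω)‖ * ‖(y : Ω)‖ < 1 := by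
      rw [← norm_mul]
      exact hxy
    by_contra hcon
    push Not at hcon
    have h2 : 1 ≤ ‖(x : Ω)‖ := not_lt.1 hcon.1
    have h3 : 1 ≤ ‖(y : Ω)‖ := not_lt.1 hcon.2
    exact absurd h1 (not_lt.2 (one_le_mul_of_one_le_of_one_le h2 h3))

variable {Ω}

lemma mk_eq_iff (a b : Oo Ω) :
    Ideal.Quotient.mk (mm Ω) a = Ideal.Quotient.mk (mm Ω) b ↔ Cg (a : Ω) b := by
  rw [Ideal.Quotient.eq]
  rfl

lemma Cg.sum {ι : Type*} (s : Finset ι) (a b : ι → Ω) (h : ∀ i ∈ s, Cg (a i) (b i)) :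
    Cg (∑ i ∈ s, a i) (∑ i ∈ s, b i) := by
  classical
  induction s using Finset.induction_on with
  | empty => simpa using Cg.refl (0 : Ω)
  | insert i s hi ih =>
    rw [Finset.sum_insert hi, Finset.sum_insert hi]
    exact (h i (Finset.mem_insert_self _ _)).add
      (ih fun j hj => h j (Finset.mem_insert_of_mem hj))

lemma norm_sum_le_one {ι : Type*} (s : Finset ι) (a : ι → Ω) (h : ∀ i ∈ s, ‖a i‖ ≤ 1) :
    ‖∑ i ∈ s, a i‖ ≤ 1 := (Oo Ω).sum_mem h

/-- the power map with exponent `p ^ f` is additive modulo elements of norm less than one -/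
lemma Cg.add_pow {p : ℕ} (hpp : p.Prime) (hp : ‖(p : Ω)‖ < 1) {a b : Ω} (ha : ‖a‖ ≤ 1)
    (hb : ‖b‖ ≤ 1) (f : ℕ) : Cg ((a + b) ^ p ^ f) (a ^ p ^ f + b ^ p ^ f) := by
  induction f with
  | zero => simpa using Cg.refl (a + b)
  | succ f ih =>
    rw [pow_succ, pow_mul, pow_mul, pow_mul]
    have ha' : ‖a ^ p ^ f‖ ≤ 1 := by
      rw [norm_pow]
      exact pow_le_one₀ (norm_nonneg _) ha
    have hb' : ‖b ^ p ^ f‖ ≤ 1 := by
      rw [norm_pow]
      exact pow_le_one₀ (norm_nonneg _) hb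
    have hab : ‖a ^ p ^ f + b ^ p ^ f‖ ≤ 1 := (norm_add_le_mx _ _).trans (max_le ha' hb')
    refine (ih.pow hab p).trans ?_
    obtain ⟨r, hr⟩ := exists_add_pow_prime_eq hpp (⟨a ^ p ^ f, ha'⟩ : Oo Ω) ⟨b ^ p ^ f, hb'⟩
    have hr' := congrArg (Subtype.val : Oo Ω → Ω) hr
    simp only [Subring.coe_add, Subring.coe_mul, SubmonoidClass.coe_pow, Subring.coe_natCast]
      at hr'
    unfold Cg
    rw [hr', add_sub_cancel_left, norm_mul, norm_mul, norm_mul]
    calc ‖(p : Ω)‖ * ‖a ^ p ^ f‖ * ‖b ^ p ^ f‖ * ‖(r : Ω)‖ ≤ ‖(p : Ω)‖ * 1 * 1 * 1 := by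
          gcongr
          exact r.2
      _ < 1 := by
          rw [mul_one, mul_one, mul_one]
          exact hp

lemma Cg.sum_pow {p : ℕ} (hpp : p.Prime) (hp : ‖(p : Ω)‖ < 1) {ι : Type*} (s : Finset ι)
    (a : ι → Ω) (h : ∀ i ∈ s, ‖a i‖ ≤ 1) (f : ℕ) :
    Cg ((∑ i ∈ s, a i) ^ p ^ f) (∑ i ∈ s, a i ^ p ^ f) := by
  classical
  induction s using Finset.induction_on with
  | empty =>
    rw [Finset.sum_empty, Finset.sum_empty, zero_pow (pow_ne_zero _ hpp.ne_zero)]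
    exact Cg.refl _
  | insert i s hi ih =>
    rw [Finset.sum_insert hi, Finset.sum_insert hi]
    have h1 : ∀ j ∈ s, ‖a j‖ ≤ 1 := fun j hj => h j (Finset.mem_insert_of_mem hj)
    refine (Cg.add_pow hpp hp (h i (Finset.mem_insert_self _ _)) (norm_sum_le_one s a h1) f).trans
      ((Cg.refl _).add (ih h1))

/-! ### roots of unity of order prime to `p` -/

omit [IsUltrametricDist Ω] in
lemma norm_eq_one_of_pow {m : ℕ} (hm0 : m ≠ 0) {ζ : Ω} (h : ζ ^ m = 1) : ‖ζ‖ = 1 := by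
  have h1 : ‖ζ‖ ^ m = 1 := by rw [← norm_pow, h, norm_one]
  exact (pow_eq_one_iff_of_nonneg (norm_nonneg _) hm0).1 h1

lemma root_unique {p : ℕ} (hpp : p.Prime) (hp : ‖(p : Ω)‖ < 1) {m : ℕ} (hm : ¬ p ∣ m)
    {ζ ζ' : Ω} (h : ζ ^ m = 1) (h' : ζ' ^ m = 1) (hc : Cg ζ ζ') : ζ = ζ' := by
  have hm0 : m ≠ 0 := by
    rintro rfl
    exact hm (dvd_zero p)
  have hn' := norm_eq_one_of_pow hm0 h'
  have hz' : ζ' ≠ 0 := by
    rintro rfl
    rw [norm_zero] at hn'
    exact zero_ne_one hn'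
  set η := ζ / ζ' with hη
  have h1 : Cg η 1 := hc.div_one hn'
  have h2 : η ^ m = 1 := by rw [hη, div_pow, h, h', div_one]
  have h3 : (∑ i ∈ Finset.range m, η ^ i) * (η - 1) = 0 := by
    rw [geom_sum_mul, h2, sub_self]
  have h4 : Cg (∑ i ∈ Finset.range m, η ^ i) (m : Ω) := by
    have := Cg.sum (Finset.range m) (fun i => η ^ i) (fun _ => (1 : Ω)) (fun i _ => by
      have := h1.pow norm_one.le i
      rwa [one_pow] at this)
    simpa using this
  have h5 := h4.norm_eq (norm_natCast_eq_one hpp hp hm)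
  have h6 : (∑ i ∈ Finset.range m, η ^ i) ≠ 0 := by
    intro h0
    rw [h0, norm_zero] at h5
    exact zero_ne_one h5
  have h7 : η - 1 = 0 := (mul_eq_zero.1 h3).resolve_left h6
  have h8 : η = 1 := sub_eq_zero.1 h7
  exact (div_eq_one_iff_eq hz').1 h8

lemma exists_lt_of_prod {ι : Type*} (s : Finset ι) (f : ι → ℝ) (h : ∏ i ∈ s, f i < 1) :
    ∃ i ∈ s, f i < 1 := by
  by_contra hcon
  push Not at hcon
  exact absurd h (not_lt.2 (Finset.one_le_prod fun i hi => hcon i hi))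

omit [IsUltrametricDist Ω] in
/-- a unit whose `m`-th power is congruent to one is congruent to an `m`-th root of unity -/
lemma exists_root [IsAlgClosed Ω] {m : ℕ} (hm0 : m ≠ 0) {u : Ω} (h : Cg (u ^ m) 1) :
    ∃ ζ : Ω, ζ ^ m = 1 ∧ Cg u ζ := by
  have hmon : (X ^ m - C (1 : Ω)).Monic := monic_X_pow_sub_C 1 hm0
  have h1 := (IsAlgClosed.splits (X ^ m - C (1 : Ω))).eq_prod_roots_of_monic hmon
  have h2 := congrArg (fun g => ‖Polynomial.eval u g‖) h1
  simp only [eval_sub, eval_pow, eval_X, eval_C, eval_multiset_prod, Multiset.map_map,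
    Function.comp_def] at h2
  by_contra hcon
  push Not at hcon
  have h3 : 1 ≤ ((X ^ m - C (1 : Ω)).roots.map fun a => ‖u - a‖).prod := by
    refine Multiset.one_le_prod_map fun a ha => ?_
    have ha' : a ^ m = 1 := by
      have := (mem_roots hmon.ne_zero).1 ha
      rw [IsRoot.def, eval_sub, eval_pow, eval_X, eval_C, sub_eq_zero] at this
      exact this
    exact not_lt.1 (hcon a ha')
  have h4 : ‖((X ^ m - C (1 : Ω)).roots.map fun a => u - a).prod‖ =
      ((X ^ m - C (1 : Ω)).roots.map fun a => ‖u - a‖).prod := by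
    have := map_multiset_prod (normHom : Ω →*₀ ℝ) ((X ^ m - C (1 : Ω)).roots.map fun a => u - a)
    rw [Multiset.map_map] at this
    exact this
  rw [h4] at h2
  unfold Cg at h
  rw [h2] at h
  exact absurd h (not_lt.2 h3)

/-- polynomials with integral coefficients -/
lemma coeff_prod_le {ι : Type*} (s : Finset ι) (g : ι → Polynomial Ω)
    (h : ∀ i ∈ s, ∀ n, ‖(g i).coeff n‖ ≤ 1) (n : ℕ) : ‖(∏ i ∈ s, g i).coeff n‖ ≤ 1 := by
  classical
  induction s using Finset.induction_on generalizing n with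
  | empty =>
    rw [Finset.prod_empty, coeff_one]
    split_ifs
    · rw [norm_one]
    · rw [norm_zero]
      exact zero_le_one
  | insert i s hi ih =>
    rw [Finset.prod_insert hi, coeff_mul]
    refine norm_sum_le_one _ _ fun x _ => ?_
    rw [norm_mul]
    exact mul_le_one₀ (h i (Finset.mem_insert_self _ _) _) (norm_nonneg _)
      (ih (fun j hj => h j (Finset.mem_insert_of_mem hj)) _)

end ring

section gal

variable {p : ℕ} {k Ω : Type*} [Field k] [NormedField Ω] [IsUltrametricDist Ω] [Algebra k Ω]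

/-- if the integral polynomials over the field fixed by `R` which vanish at `ζ` modulo the
maximal ideal also vanish at `ζ'`, then `ζ'` is conjugate to `ζ` under `R` -/
lemma exists_conj_root (hpp : p.Prime) (hp : ‖(p : Ω)‖ < 1) (R : Subgroup Gal(Ω/k)) {m : ℕ}
    (hm : ¬ p ∣ m) {ζ ζ' : Ω} (h : ζ ^ m = 1) (h' : ζ' ^ m = 1)
    (H : ∀ g : Polynomial Ω, (∀ n, (∀ ρ ∈ R, ρ (g.coeff n) = g.coeff n) ∧ ‖g.coeff n‖ ≤ 1) →
      ‖g.eval ζ‖ < 1 → ‖g.eval ζ'‖ < 1) : ∃ ρ ∈ R, ρ ζ = ζ' := by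
  classical
  have hm0 : m ≠ 0 := by
    rintro rfl
    exact hm (dvd_zero p)
  have hfin : (MulAction.orbit R ζ).Finite := by
    refine Set.Finite.subset (Polynomial.finite_setOfPred_isRoot (p := X ^ m - C (1 : Ω))
      (monic_X_pow_sub_C 1 hm0).ne_zero) ?_
    rintro _ ⟨ρ, rfl⟩
    show IsRoot (X ^ m - C (1 : Ω)) ((ρ : Gal(Ω/k)) ζ)
    rw [IsRoot.def, eval_sub, eval_pow, eval_X, eval_C, ← map_pow, h, map_one, sub_self]
  set O := hfin.toFinset with hO
  have hmemO : ∀ y, y ∈ O ↔ ∃ ρ ∈ R, ρ ζ = y := by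
    intro y
    rw [hO, Set.Finite.mem_toFinset]
    constructor
    · rintro ⟨ρ, rfl⟩
      exact ⟨ρ.1, ρ.2, rfl⟩
    · rintro ⟨ρ, hρ, rfl⟩
      exact ⟨⟨ρ, hρ⟩, rfl⟩
  set g : Polynomial Ω := ∏ y ∈ O, (X - C y) with hg
  have hOpow : ∀ y ∈ O, y ^ m = 1 := by
    intro y hy
    obtain ⟨ρ, hρ, rfl⟩ := (hmemO y).1 hy
    rw [← map_pow, h, map_one]
  have hcoef : ∀ n, (∀ ρ ∈ R, ρ (g.coeff n) = g.coeff n) ∧ ‖g.coeff n‖ ≤ 1 := by
    intro n
    constructor
    · intro ρ hρ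
      have h1 : g.map ((ρ : Gal(Ω/k)) : Ω →+* Ω) = g := by
        rw [hg, Polynomial.map_prod]
        simp only [Polynomial.map_sub, map_X, map_C]
        refine Finset.prod_bij (fun y _ => ρ y) ?_ ?_ ?_ ?_
        · intro y hy
          obtain ⟨τ, hτ, rfl⟩ := (hmemO y).1 hy
          exact (hmemO _).2 ⟨ρ * τ, R.mul_mem hρ hτ, rfl⟩
        · intro y _ y' _ hyy
          exact ρ.injective hyy
        · intro y hy
          obtain ⟨τ, hτ, rfl⟩ := (hmemO y).1 hy
          refine ⟨(ρ⁻¹ * τ) ζ, (hmemO _).2 ⟨ρ⁻¹ * τ, R.mul_mem (R.inv_mem hρ) hτ, rfl⟩, ?_⟩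
          rw [AlgEquiv.mul_apply, inv_app]
        · intro y _
          rfl
      have h2 := congrArg (fun q => Polynomial.coeff q n) h1
      simpa using h2
    · refine coeff_prod_le O _ (fun y hy j => ?_) n
      rw [coeff_sub, coeff_X, coeff_C]
      have hy1 := norm_eq_one_of_pow hm0 (hOpow y hy)
      refine (norm_sub_le_mx _ _).trans (max_le ?_ ?_)
      · split_ifs
        · rw [norm_one]
        · rw [norm_zero]
          exact zero_le_one
      · split_ifs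
        · exact hy1.le
        · rw [norm_zero]
          exact zero_le_one
  have hζO : ζ ∈ O := (hmemO ζ).2 ⟨1, R.one_mem, rfl⟩
  have h0 : g.eval ζ = 0 := by
    rw [hg, eval_prod]
    exact Finset.prod_eq_zero hζO (by simp)
  have h1 := H g hcoef (by rw [h0, norm_zero]; exact one_pos)
  rw [hg, eval_prod, norm_prod] at h1
  obtain ⟨y, hy, hy1⟩ := exists_lt_of_prod O _ h1
  rw [eval_sub, eval_X, eval_C] at hy1
  have h2 : ζ' = y := root_unique hpp hp hm h' (hOpow y hy) hy1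
  rw [h2]
  exact (hmemO y).1 hy

end gal

end P025H281
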