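import Vale.Agent.P025.R2.H281.Frob

/-! # Frobenius elements exist and generate modulo inertia -/

open Polynomial

namespace P025H281

/-- the standing assumptions on the normed field `Ω` over `k` -/
structure Std (p : ℕ) (k Ω : Type*) [Field k] [NormedField Ω] [Algebra k Ω] : Prop where
  isom : ∀ (σ : Gal(Ω/k)) (x : Ω), ‖σ x‖ = ‖x‖
  lt : ‖(p : Ω)‖ < 1
  tors : ∀ u : Ω, ‖u‖ = 1 → ∃ m, ¬ p ∣ m ∧ Cg (u ^ m) 1

/-- the field fixed by `S` has residue field with `p ^ f` elements -/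
structure ResF {k Ω : Type*} [Field k] [NormedField Ω] [Algebra k Ω] (p f : ℕ)
    (S : Subgroup Gal(Ω/k)) : Prop where
  pos : 0 < f
  fix_pow : ∀ a : Ω, (∀ σ ∈ S, σ a = a) → ‖a‖ ≤ 1 → Cg (a ^ p ^ f) a
  pow_fix : ∀ a : Ω, ‖a‖ ≤ 1 → Cg (a ^ p ^ f) a → ∀ σ ∈ S, Cg (σ a) a

variable {p : ℕ} [Fact p.Prime] {k Ω : Type*} [Field k] [NormedField Ω] [IsUltrametricDist Ω]
  [Algebra k Ω]

omit [Fact p.Prime] in
lemma ne_zero_of_not_dvd {m : ℕ} (hm : ¬ p ∣ m) : m ≠ 0 := by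
  rintro rfl
  exact hm (dvd_zero p)

lemma natCast_ne_zero (hp : ‖(p : Ω)‖ < 1) {m : ℕ} (hm : ¬ p ∣ m) : (m : Ω) ≠ 0 := by
  intro h0
  have := norm_natCast_eq_one Fact.out hp hm
  rw [h0, norm_zero] at this
  exact zero_ne_one this

lemma exists_prim [IsAlgClosed Ω] (hp : ‖(p : Ω)‖ < 1) {m : ℕ} (hm : ¬ p ∣ m) :
    ∃ ζ : Ω, IsPrimitiveRoot ζ m := by
  have : NeZero (m : Ω) := ⟨natCast_ne_zero hp hm⟩
  exact HasEnoughRootsOfUnity.exists_primitiveRoot Ω m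

lemma IsFrob.root (h0 : Std p k Ω) {φ : Gal(Ω/k)} {Q : ℕ} (hφ : IsFrob φ Q) {m : ℕ}
    (hm : ¬ p ∣ m) {ζ : Ω} (hζ : ζ ^ m = 1) : φ ζ = ζ ^ Q := by
  refine root_unique Fact.out h0.lt hm ?_ ?_
    (hφ ζ (norm_eq_one_of_pow (ne_zero_of_not_dvd hm) hζ).le)
  · rw [← map_pow, hζ, map_one]
  · rw [← pow_mul, mul_comm, pow_mul, hζ, one_pow]

omit [Fact p.Prime] [IsUltrametricDist Ω] in
lemma Cg.map (h0 : Std p k Ω) (σ : Gal(Ω/k)) {a b : Ω} (h : Cg a b) : Cg (σ a) (σ b) := by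
  unfold Cg at *
  rwa [← map_sub, h0.isom]

omit [Fact p.Prime] in
lemma IsFrob.pow (h0 : Std p k Ω) {φ : Gal(Ω/k)} {Q : ℕ} (hφ : IsFrob φ Q) (n : ℕ) :
    IsFrob (φ ^ n) (Q ^ n) := by
  intro x hx
  induction n with
  | zero => simpa using Cg.refl x
  | succ n ih =>
    rw [pow_succ', AlgEquiv.mul_apply, pow_succ, pow_mul]
    have h1 : ‖x ^ Q ^ n‖ ≤ 1 := by
      rw [norm_pow]
      exact pow_le_one₀ (norm_nonneg _) hx
    exact (ih.map h0 φ).trans (hφ _ h1)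

omit [Fact p.Prime] in
lemma IsFrob.mul_left (h0 : Std p k Ω) {φ σ : Gal(Ω/k)} {Q : ℕ} (hφ : IsFrob φ Q)
    (hσ : σ ∈ inertia k Ω) : IsFrob (σ * φ) Q := by
  intro x hx
  rw [AlgEquiv.mul_apply]
  have h1 : ‖φ x‖ ≤ 1 := by rwa [h0.isom]
  have h2 : Cg (σ (φ x)) (φ x) := hσ.2 _ h1
  exact h2.trans (hφ x hx)

/-- **existence of Frobenius elements** -/
theorem exists_frob [IsAlgClosed Ω] [IsGalois k Ω] (h0 : Std p k Ω) {f : ℕ}
    {S : Subgroup Gal(Ω/k)} (hS : IsClosed (S : Set Gal(Ω/k))) (h : ResF p f S) :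
    ∃ φ ∈ S, IsFrob φ (p ^ f) := by
  have hpp : p.Prime := Fact.out
  let ι := {m : ℕ // ¬ p ∣ m}
  have : Nonempty ι := ⟨⟨1, hpp.one_lt.ne' ∘ Nat.dvd_one.1⟩⟩
  let C : ι → Set Gal(Ω/k) := fun m => {φ | φ ∈ S ∧ ∀ ζ : Ω, ζ ^ m.1 = 1 → φ ζ = ζ ^ p ^ f}
  have hcl : ∀ m, IsClosed (C m) := by
    intro m
    have h1 : C m = (S : Set Gal(Ω/k)) ∩ ⋂ (ζ : Ω) (_ : ζ ^ m.1 = 1),
        {φ : Gal(Ω/k) | φ ζ ∈ ({ζ ^ p ^ f} : Set Ω)} := by
      ext φ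
      simp [C]
    rw [h1]
    exact hS.inter (isClosed_iInter fun ζ => isClosed_iInter fun _ => isClosed_apply ζ _)
  obtain ⟨φ, hφ⟩ := IsCompact.nonempty_iInter_of_directed_nonempty_isCompact_isClosed C (by
      intro m m'
      refine ⟨⟨m.1 * m'.1, fun hd => ?_⟩, ?_, ?_⟩
      · rcases hpp.dvd_mul.1 hd with h1 | h1
        · exact m.2 h1
        · exact m'.2 h1
      · rintro φ ⟨h1, h2⟩
        exact ⟨h1, fun ζ hζ => h2 ζ (by rw [pow_mul, hζ, one_pow])⟩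
      · rintro φ ⟨h1, h2⟩
        exact ⟨h1, fun ζ hζ => h2 ζ (by rw [pow_mul', hζ, one_pow])⟩)
    (by
      rintro ⟨m, hm⟩
      obtain ⟨ζ, hζ⟩ := exists_prim (Ω := Ω) h0.lt hm
      have h1 := hζ.pow_eq_one
      have hn := (norm_eq_one_of_pow (ne_zero_of_not_dvd hm) h1).le
      obtain ⟨φ, hφS, hφ⟩ := exists_conj_root (k := k) hpp h0.lt S hm h1
        (ζ' := ζ ^ p ^ f) (by rw [← pow_mul, mul_comm, pow_mul, h1, one_pow]) (by
          intro g hg hgz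
          rw [eval_eq_sum_range] at hgz ⊢
          have h2 : ∀ i ∈ Finset.range (g.natDegree + 1), ‖g.coeff i * ζ ^ i‖ ≤ 1 := by
            intro i _
            rw [norm_mul, norm_pow]
            exact mul_le_one₀ (hg i).2 (by positivity) (pow_le_one₀ (norm_nonneg _) hn)
          have h3 := Cg.sum_pow hpp h0.lt (Finset.range (g.natDegree + 1))
            (fun i => g.coeff i * ζ ^ i) h2 f
          have h4 : Cg (∑ i ∈ Finset.range (g.natDegree + 1), (g.coeff i * ζ ^ i) ^ p ^ f)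
              (∑ i ∈ Finset.range (g.natDegree + 1), g.coeff i * (ζ ^ p ^ f) ^ i) := by
            refine Cg.sum _ _ _ fun i _ => ?_
            rw [mul_pow, ← pow_mul, ← pow_mul, mul_comm i]
            refine (h.fix_pow _ (hg i).1 (hg i).2).mul (Cg.refl _) ?_ ?_
            · rw [norm_pow]
              exact pow_le_one₀ (norm_nonneg _) (hg i).2
            · rw [norm_pow]
              exact pow_le_one₀ (norm_nonneg _) hn
          have h5 : Cg ((∑ i ∈ Finset.range (g.natDegree + 1), g.coeff i * ζ ^ i) ^ p ^ f) 0 := by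
            unfold Cg
            rw [sub_zero, norm_pow]
            exact pow_lt_one₀ (norm_nonneg _) hgz (pow_ne_zero _ hpp.ne_zero)
          have h6 := (h3.trans h4).symm.trans h5
          unfold Cg at h6
          rwa [sub_zero] at h6)
      refine ⟨φ, hφS, fun η hη => ?_⟩
      have : NeZero m := ⟨ne_zero_of_not_dvd hm⟩
      obtain ⟨i, -, rfl⟩ := hζ.eq_pow_of_pow_eq_one hη
      rw [map_pow, hφ, ← pow_mul, ← pow_mul, mul_comm])
    (fun m => (hcl m).isCompact) hcl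
  rw [Set.mem_iInter] at hφ
  refine ⟨φ, (hφ ⟨1, hpp.one_lt.ne' ∘ Nat.dvd_one.1⟩).1, fun x hx => ?_⟩
  rcases hx.lt_or_eq with hlt | heq
  · unfold Cg
    refine (norm_sub_le_mx _ _).trans_lt (max_lt ?_ ?_)
    · rwa [h0.isom]
    · rw [norm_pow]
      exact pow_lt_one₀ (norm_nonneg _) hlt (pow_ne_zero _ hpp.ne_zero)
  · obtain ⟨m, hm, hxm⟩ := h0.tors x heq
    obtain ⟨ζ, hζ, hxζ⟩ := exists_root (ne_zero_of_not_dvd hm) hxm
    have hn := (norm_eq_one_of_pow (ne_zero_of_not_dvd hm) hζ).le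
    have h1 := (hφ ⟨m, hm⟩).2 ζ hζ
    have h2 := hxζ.map h0 φ
    rw [h1] at h2
    exact h2.trans (hxζ.pow hn _).symm

/-- the tame relation on Sylow subgroups of inertia -/
theorem exists_syl_frob [IsAlgClosed Ω] [IsGalois k Ω] (h0 : Std p k Ω) {f : ℕ}
    {S : Subgroup Gal(Ω/k)} (hS : IsClosed (S : Set Gal(Ω/k))) (h : ResF p f S) (l : ℕ)
    [Fact l.Prime] (hl : l ≠ p) {P : Subgroup Gal(Ω/k)} (hP : IsSyl l (inertia k Ω ⊓ S) P) :
    ∃ φ ∈ S, IsFrob φ (p ^ f) ∧ ∀ x ∈ P, φ * x * φ⁻¹ = x ^ p ^ f := by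
  obtain ⟨φ, hφS, hφ⟩ := exists_frob h0 hS h
  have hn := inertia_normal h0.isom
  have hcl : IsClosed ((inertia k Ω ⊓ S : Subgroup Gal(Ω/k)) : Set Gal(Ω/k)) := by
    rw [Subgroup.coe_inf]
    exact inertia_closed.inter hS
  obtain ⟨y, hy, hyn⟩ := hP.frattini hcl (g := φ) (by
    intro x
    constructor
    · rintro ⟨h1, h2⟩
      refine ⟨?_, S.mul_mem (S.mul_mem (S.inv_mem hφS) h2) hφS⟩
      have := hn.conj_mem x h1 φ⁻¹
      rwa [inv_inv] at this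
    · rintro ⟨h1, h2⟩
      have h3 : φ * (φ⁻¹ * x * φ) * φ⁻¹ = x := by group
      rw [← h3]
      exact ⟨hn.conj_mem _ h1 φ, S.mul_mem (S.mul_mem hφS h2) (S.inv_mem hφS)⟩)
  have hφ' : IsFrob (y * φ) (p ^ f) := hφ.mul_left h0 hy.1
  refine ⟨y * φ, S.mul_mem hy.2 hφS, hφ', fun x hx => ?_⟩
  have h1 : x ∈ inertia k Ω := (hP.le hx).1
  have h2 := tame_rel h0.isom hφ' h1
  have h3 : y * φ * x * (y * φ)⁻¹ ∈ P := (Subgroup.mem_normalizer_iff.1 hyn x).1 hx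
  have h4 : y * φ * x * (y * φ)⁻¹ * (x ^ p ^ f)⁻¹ ∈ P ⊓ wild k Ω :=
    ⟨P.mul_mem h3 (P.inv_mem (P.pow_mem hx _)), h2⟩
  rw [IsPro.inf_eq_bot hl hP.pro (wild_pro h0.lt), Subgroup.mem_bot] at h4
  exact mul_inv_eq_one.1 h4

end P025H281
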