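import Vale.Agent.P025.R2.H281.Val
import Vale.Agent.P025.R2.H505.ValCond

/-! # The `p`-adic case -/

namespace P025H281

variable {p : ℕ} [Fact p.Prime] {Ω : Type*} [NormedField Ω] [Algebra ℚ_[p] Ω]

section ball

variable (hn : ∀ x : Ω, ‖x‖ = spectralNorm ℚ_[p] Ω x)
include hn

lemma norm_algebraMap_padic (r : ℚ_[p]) : ‖algebraMap ℚ_[p] Ω r‖ = ‖r‖ := by
  rw [hn, spectralNorm_extends]

/-- the unit ball of a finite-dimensional subspace is compact -/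
lemma isCompact_ball (V : Submodule ℚ_[p] Ω) [FiniteDimensional ℚ_[p] V] :
    IsCompact {x : Ω | x ∈ V ∧ ‖x‖ ≤ 1} := by
  let _ : NormedAlgebra ℚ_[p] Ω :=
    { (inferInstance : Algebra ℚ_[p] Ω) with
      norm_smul_le := fun r x => by
        rw [Algebra.smul_def, norm_mul, norm_algebraMap_padic hn] }
  have : ProperSpace V := FiniteDimensional.proper ℚ_[p] V
  have h1 : IsCompact (Metric.closedBall (0 : V) 1) := isCompact_closedBall _ _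
  have h2 : {x : Ω | x ∈ V ∧ ‖x‖ ≤ 1} = (Subtype.val : V → Ω) '' Metric.closedBall (0 : V) 1 := by
    ext x
    constructor
    · rintro ⟨hx, hx1⟩
      exact ⟨⟨x, hx⟩, by simpa using hx1, rfl⟩
    · rintro ⟨y, hy, rfl⟩
      refine ⟨y.2, ?_⟩
      simpa using hy
  rw [h2]
  exact h1.image continuous_subtype_val

/-- finitely many residues -/
lemma exists_residues (V : Submodule ℚ_[p] Ω) [FiniteDimensional ℚ_[p] V] :
    ∃ T : Finset Ω, ∀ a ∈ V, ‖a‖ ≤ 1 → ∃ t ∈ T, Cg a t := by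
  obtain ⟨T, -, hT, hcov⟩ := (isCompact_ball hn V).finite_cover_balls one_pos
  refine ⟨hT.toFinset, fun a ha ha1 => ?_⟩
  have h1 := hcov ⟨ha, ha1⟩
  simp only [Set.mem_iUnion, Metric.mem_ball, dist_eq_norm] at h1
  obtain ⟨t, ht, hat⟩ := h1
  exact ⟨t, hT.mem_toFinset.2 ht, hat⟩

/-- an element of maximal norm less than one -/
lemma exists_max [IsUltrametricDist Ω] (V : Submodule ℚ_[p] Ω) [FiniteDimensional ℚ_[p] V]
    (h1 : (1 : Ω) ∈ V) :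
    ∃ ϖ ∈ V, ϖ ≠ 0 ∧ ‖ϖ‖ < 1 ∧ ∀ z ∈ V, ‖z‖ < 1 → ‖z‖ ≤ ‖ϖ‖ := by
  have hK : IsCompact ({x : Ω | x ∈ V ∧ ‖x‖ ≤ 1} ∩ Metric.ball 0 1) :=
    (isCompact_ball hn V).inter_right (IsUltrametricDist.isClosed_ball _ _)
  have hpV : algebraMap ℚ_[p] Ω (p : ℚ_[p]) ∈ V := by
    rw [Algebra.algebraMap_eq_smul_one]
    exact V.smul_mem _ h1
  have hpn : ‖algebraMap ℚ_[p] Ω (p : ℚ_[p])‖ < 1 := by
    rw [norm_algebraMap_padic hn]
    exact Padic.norm_p_lt_one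
  obtain ⟨ϖ, ⟨⟨hV, -⟩, hb⟩, hmax⟩ := hK.exists_isMaxOn
    ⟨_, ⟨hpV, hpn.le⟩, by rw [mem_ball_zero_iff]; exact hpn⟩ continuous_norm.continuousOn
  rw [mem_ball_zero_iff] at hb
  refine ⟨ϖ, hV, ?_, hb, fun z hz hz1 => ?_⟩
  · rintro rfl
    have h2 := hmax (⟨⟨hpV, hpn.le⟩, by rw [mem_ball_zero_iff]; exact hpn⟩ :
      algebraMap ℚ_[p] Ω (p : ℚ_[p]) ∈ {x : Ω | x ∈ V ∧ ‖x‖ ≤ 1} ∩ Metric.ball 0 1)
    simp only [Set.mem_ofPred_eq, norm_zero, norm_le_zero_iff] at h2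
    have h3 : (p : ℚ_[p]) = 0 := (map_eq_zero _).1 h2
    exact (Fact.out : p.Prime).ne_zero (by exact_mod_cast h3)
  · exact hmax ⟨⟨hz, hz1.le⟩, by rw [mem_ball_zero_iff]; exact hz1⟩

end ball

variable [IsUltrametricDist Ω] (hn : ∀ x : Ω, ‖x‖ = spectralNorm ℚ_[p] Ω x)

include hn in
lemma tors_padic [Algebra.IsAlgebraic ℚ_[p] Ω] (u : Ω) (hu : ‖u‖ = 1) :
    ∃ m, ¬ p ∣ m ∧ Cg (u ^ m) 1 := by
  have hpp : p.Prime := Fact.out
  have hlt : ‖(p : Ω)‖ < 1 := by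
    have h1 := norm_algebraMap_padic hn (p : ℚ_[p])
    rw [map_natCast] at h1
    rw [h1]
    exact Padic.norm_p_lt_one
  let L := IntermediateField.adjoin ℚ_[p] {u}
  have hL : FiniteDimensional ℚ_[p] L :=
    IntermediateField.adjoin.finiteDimensional (Algebra.IsAlgebraic.isAlgebraic u).isIntegral
  let V : Submodule ℚ_[p] Ω := Subalgebra.toSubmodule L.toSubalgebra
  have hV : FiniteDimensional ℚ_[p] V := hL
  obtain ⟨T, hT⟩ := exists_residues hn V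
  have hun : ∀ n : ℕ, ‖u ^ n‖ = 1 := fun n => by rw [norm_pow, hu, one_pow]
  have huV : ∀ n : ℕ, u ^ n ∈ V := fun n =>
    pow_mem (IntermediateField.mem_adjoin_simple_self ℚ_[p] u) n
  choose t ht htc using fun n : ℕ => hT (u ^ n) (huV n) (hun n).le
  obtain ⟨m, n, hmn, heq⟩ := Finite.exists_ne_map_eq_of_infinite (fun n : ℕ => (⟨t n, ht n⟩ : T))
  have heq' : t m = t n := congrArg Subtype.val heq
  have key : ∀ a b : ℕ, a < b → t a = t b → ∃ d, 0 < d ∧ Cg (u ^ d) 1 := by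
    intro a b hab h
    refine ⟨b - a, Nat.sub_pos_of_lt hab, ?_⟩
    have h1 : Cg (u ^ b) (u ^ a) := by
      have h2 := htc a
      rw [h] at h2
      exact (htc b).trans h2.symm
    have h3 := h1.div_one (hun a)
    have hu0 : u ≠ 0 := by
      rintro rfl
      rw [norm_zero] at hu
      exact zero_ne_one hu
    rwa [div_eq_mul_inv, ← pow_sub₀ u hu0 hab.le] at h3
  obtain ⟨d, hd, hcg⟩ : ∃ d, 0 < d ∧ Cg (u ^ d) 1 := by
    rcases lt_or_gt_of_ne hmn with h | h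
    · exact key m n h heq'
    · exact key n m h heq'.symm
  obtain ⟨a, m', hm', hd'⟩ := Nat.exists_eq_pow_mul_and_not_dvd hd.ne' p hpp.ne_one
  refine ⟨m', hm', ?_⟩
  refine Cg.of_pow (n := a) hpp hlt (hun m').le ?_
  rw [← pow_mul, mul_comm, ← hd']
  exact hcg

variable (k : Type*) [Field k] [Algebra k Ω] [Algebra ℚ_[p] k] [IsScalarTower ℚ_[p] k Ω]

include hn in
/-- the standing assumptions hold over `p`-adic fields -/
theorem std_padic [Algebra.IsAlgebraic ℚ_[p] Ω] : Std p k Ω where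
  isom σ x := by
    rw [hn, hn, spectralNorm_eq_of_equiv (AlgEquiv.restrictScalars ℚ_[p] σ) x]
    rfl
  lt := by
    have h1 := norm_algebraMap_padic hn (p : ℚ_[p])
    rw [map_natCast] at h1
    rw [h1]
    exact Padic.norm_p_lt_one
  tors := tors_padic hn

variable {k} [FiniteDimensional ℚ_[p] k] [IsGalois k Ω]

omit [IsGalois k Ω] in
lemma exists_submodule {Ω : Type*} [Field Ω] [Algebra ℚ_[p] Ω] [Algebra k Ω]
    [IsScalarTower ℚ_[p] k Ω] [IsGalois k Ω] {S : Subgroup Gal(Ω/k)}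
    (hS : IsOpen (S : Set Gal(Ω/k))) :
    ∃ V : Submodule ℚ_[p] Ω, FiniteDimensional ℚ_[p] V ∧ (1 : Ω) ∈ V ∧
      ∀ x, x ∈ V ↔ ∀ σ ∈ S, σ x = x := by
  let S' : ClosedSubgroup Gal(Ω/k) := ⟨S, Subgroup.isClosed_of_isOpen S hS⟩
  let L : IntermediateField k Ω := IntermediateField.fixedField S
  have h1 : L.fixingSubgroup = S := InfiniteGalois.fixingSubgroup_fixedField S'
  have h2 : FiniteDimensional k L := by
    rw [← InfiniteGalois.isOpen_iff_finite, h1]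
    exact hS
  have h3 : FiniteDimensional ℚ_[p] L := Module.Finite.trans k L
  refine ⟨(Subalgebra.toSubmodule L.toSubalgebra).restrictScalars ℚ_[p], h3, ?_, ?_⟩
  · exact L.one_mem
  · intro x
    exact IntermediateField.mem_fixedField_iff _ _

include hn in
/-- the residue field of a finite extension of `ℚ_p` -/
theorem exists_resF_padic [Algebra.IsAlgebraic ℚ_[p] Ω] {S : Subgroup Gal(Ω/k)}
    (hS : IsOpen (S : Set Gal(Ω/k))) : ∃ f, ResF p f S := by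
  obtain ⟨V, hV, -, hVm⟩ := exists_submodule (p := p) hS
  obtain ⟨T, hT⟩ := exists_residues hn V
  exact exists_resF (std_padic hn k) T fun a ha ha1 => hT a ((hVm a).2 ha) ha1

include hn in
/-- uniformizers of finite extensions of `ℚ_p` -/
theorem exists_unif_padic {S : Subgroup Gal(Ω/k)} (hS : IsOpen (S : Set Gal(Ω/k))) :
    ∃ ϖ : Ω, (∀ σ ∈ S, σ ϖ = ϖ) ∧ ϖ ≠ 0 ∧ ‖ϖ‖ < 1 ∧
      ∀ z, z ≠ 0 → (∀ σ ∈ S, σ z = z) → ∃ n : ℤ, ‖z‖ = ‖ϖ‖ ^ n := by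
  obtain ⟨V, hV, h1, hVm⟩ := exists_submodule (p := p) hS
  obtain ⟨ϖ, hϖV, hϖ0, hϖ1, hmax⟩ := exists_max hn V h1
  have hϖS := (hVm ϖ).1 hϖV
  refine ⟨ϖ, hϖS, hϖ0, hϖ1, fun z hz0 hz => ?_⟩
  have hpos : 0 < ‖ϖ‖ := norm_pos_iff.2 hϖ0
  obtain ⟨n, hn1, hn2⟩ := exists_mem_Ico_zpow (norm_pos_iff.2 hz0) ((one_lt_inv₀ hpos).2 hϖ1)
  -- `‖ϖ‖ ^ (-n) ≤ ‖z‖ < ‖ϖ‖ ^ (- (n + 1))`
  rw [inv_zpow'] at hn1 hn2
  refine ⟨-n, ?_⟩
  have hw : z * ϖ ^ (n + 1) ∈ V := by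
    rw [hVm]
    intro σ hσ
    rw [map_mul, map_zpow₀, hz σ hσ, hϖS σ hσ]
  have hwn : ‖z * ϖ ^ (n + 1)‖ = ‖z‖ * ‖ϖ‖ ^ (n + 1) := by rw [norm_mul, norm_zpow]
  have hp1 : 0 < ‖ϖ‖ ^ (n + 1) := zpow_pos hpos _
  have hwlt : ‖z * ϖ ^ (n + 1)‖ < 1 := by
    rw [hwn]
    calc ‖z‖ * ‖ϖ‖ ^ (n + 1) < ‖ϖ‖ ^ (-(n + 1)) * ‖ϖ‖ ^ (n + 1) := by
          gcongr
      _ = 1 := by rw [← zpow_add₀ hpos.ne', neg_add_cancel, zpow_zero]
  have h2 := hmax _ hw hwlt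
  rw [hwn, zpow_add_one₀ hpos.ne', ← mul_assoc] at h2
  have h3 : ‖z‖ * ‖ϖ‖ ^ n ≤ 1 := by
    have := le_of_mul_le_mul_right (by rwa [one_mul] : ‖z‖ * ‖ϖ‖ ^ n * ‖ϖ‖ ≤ 1 * ‖ϖ‖) hpos
    exact this
  refine le_antisymm ?_ hn1
  rw [zpow_neg, ← one_div, le_div_iff₀ (zpow_pos hpos _)]
  exact h3

include hn in
/-- **tame part**: in the form used for the existence of fixed points -/
theorem tame_padic [Algebra.IsAlgebraic ℚ_[p] Ω] [IsAlgClosed Ω] {l : ℕ} [Fact l.Prime]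
    (hl : l ≠ p) (S : Subgroup Gal(Ω/k)) (hS : IsOpen (S : Set Gal(Ω/k))) :
    ∃ P : Subgroup Gal(Ω/k), IsSyl l (inertia k Ω ⊓ S) P ∧
      ∃ φ : Gal(Ω/k), ∃ Q : ℕ, 1 < Q ∧ ∀ x ∈ P, φ * x * φ⁻¹ = x ^ Q := by
  have hScl : IsClosed (S : Set Gal(Ω/k)) := Subgroup.isClosed_of_isOpen S hS
  have hcl : IsClosed ((inertia k Ω ⊓ S : Subgroup Gal(Ω/k)) : Set Gal(Ω/k)) := by
    rw [Subgroup.coe_inf]
    exact inertia_closed.inter hScl
  have hbot : IsPro l (⊥ : Subgroup Gal(Ω/k)) := by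
    intro N _ _
    rw [Subgroup.map_bot]
    exact IsPGroup.of_bot
  obtain ⟨P, -, hP⟩ := exists_isSyl l hcl bot_le hbot
  obtain ⟨f, hf⟩ := exists_resF_padic hn hS
  obtain ⟨φ, -, -, hφ⟩ := exists_syl_frob (std_padic hn k) hScl hf l hl hP
  exact ⟨P, hP, φ, p ^ f, Nat.one_lt_pow hf.pos.ne' (Fact.out : p.Prime).one_lt, hφ⟩

include hn in
/-- **values**: the value group of the field fixed by a `q`-Sylow subgroup of the inertia group
of an open subgroup is not divisible by `q` (`q = p` is allowed) -/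
theorem val_of_isSyl [Algebra.IsAlgebraic ℚ_[p] Ω] [IsAlgClosed Ω] (q : ℕ) [Fact q.Prime]
    (S P : Subgroup Gal(Ω/k)) (hS : IsOpen (S : Set Gal(Ω/k)))
    (hP : IsSyl q (inertia k Ω ⊓ S) P) : P025H505.ValCond q P := by
  obtain ⟨f, hf⟩ := exists_resF_padic hn hS
  obtain ⟨ϖ, hϖS, hϖ0, hϖ1, hdisc⟩ := exists_unif_padic hn hS
  refine ⟨ϖ, fun s hs => hϖS s (hP.le hs).2, hϖ0, hϖ1, fun x hx => ?_⟩
  exact value_not_pow (std_padic hn k) (Subgroup.isClosed_of_isOpen S hS) hf q hP hϖS hϖ0 hϖ1.ne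
    hdisc hx

end P025H281
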