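import Vale.Agent.P025.R2.H281.Padic

/-! # The `p`-adic case, for a field without a chosen norm

The algebraic closure of a `p`-adic field carries the spectral norm. Usage:

  let _ : NormedField Kb := nfK p Kb
  have _ : IsUltrametricDist Kb := ultraK p Kb
-/

namespace P025H281

variable (p : ℕ) [Fact p.Prime] (Kb : Type*) [Field Kb] [Algebra ℚ_[p] Kb]
  [Algebra.IsAlgebraic ℚ_[p] Kb]

/-- `Kb` with the spectral norm -/
@[instance_reducible]
noncomputable def nfK : NormedField Kb := spectralNorm.normedField ℚ_[p] Kb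

lemma norm_nfK (x : Kb) : (nfK p Kb).norm x = spectralNorm ℚ_[p] Kb x := rfl

lemma ultraK : @IsUltrametricDist Kb (nfK p Kb).toMetricSpace.toDist := by
  let _ : NormedField Kb := nfK p Kb
  exact IsUltrametricDist.isUltrametricDist_of_isNonarchimedean_norm
    (S' := Kb) (isNonarchimedean_spectralNorm (K := ℚ_[p]) (L := Kb))

variable (k : Type*) [Field k] [Algebra k Kb]

/-- the inertia group of `k` -/
noncomputable def inertiaK : Subgroup Gal(Kb/k) :=
  @inertia k Kb _ (nfK p Kb) (ultraK p Kb) _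

/-- the wild inertia group of `k` -/
noncomputable def wildK : Subgroup Gal(Kb/k) :=
  @wild k Kb _ (nfK p Kb) (ultraK p Kb) _

variable [Algebra ℚ_[p] k] [IsScalarTower ℚ_[p] k Kb]

lemma stdK : @Std p k Kb _ (nfK p Kb) _ := by
  let _ : NormedField Kb := nfK p Kb
  have : IsUltrametricDist Kb := ultraK p Kb
  exact std_padic (fun _ => rfl) k

variable [FiniteDimensional ℚ_[p] k] [IsGalois k Kb] [IsAlgClosed Kb]

theorem tameK {l : ℕ} [Fact l.Prime] (hl : l ≠ p) (S : Subgroup Gal(Kb/k))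
    (hS : IsOpen (S : Set Gal(Kb/k))) :
    ∃ P : Subgroup Gal(Kb/k), IsSyl l (inertiaK p Kb k ⊓ S) P ∧
      ∃ φ : Gal(Kb/k), ∃ Q : ℕ, 1 < Q ∧ ∀ x ∈ P, φ * x * φ⁻¹ = x ^ Q := by
  let _ : NormedField Kb := nfK p Kb
  have : IsUltrametricDist Kb := ultraK p Kb
  exact tame_padic (fun _ => rfl) hl S hS

theorem valK (q : ℕ) [Fact q.Prime] (S P : Subgroup Gal(Kb/k)) (hS : IsOpen (S : Set Gal(Kb/k)))
    (hP : IsSyl q (inertiaK p Kb k ⊓ S) P) :
    ∃ π : Kb, (∀ s ∈ P, s π = π) ∧ π ≠ 0 ∧ spectralNorm ℚ_[p] Kb π < 1 ∧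
      ∀ x : Kb, (∀ s ∈ P, s x = x) → spectralNorm ℚ_[p] Kb x ^ q ≠ spectralNorm ℚ_[p] Kb π := by
  let _ : NormedField Kb := nfK p Kb
  have : IsUltrametricDist Kb := ultraK p Kb
  exact val_of_isSyl (fun _ => rfl) q S P hS hP

end P025H281
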