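import Mathlib

/-! # Sylow subgroups of profinite groups -/

namespace P025H281

section fin

variable {Γ : Type*} [Group Γ] {q : ℕ}

/-- a subgroup of index prime to `q` contains a conjugate of each `q`-subgroup -/
lemma fin_conj [Finite Γ] [Fact q.Prime] {A B C : Subgroup Γ} (hB : ¬ q ∣ B.relIndex A)
    (hC : C ≤ A) (hCq : IsPGroup q C) : ∃ a ∈ A, ∀ x ∈ C, a⁻¹ * x * a ∈ B := by
  let φ : C →* A := Subgroup.inclusion hC
  let _ : MulAction C (A ⧸ B.subgroupOf A) := MulAction.compHom _ φ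
  have hcard : ¬ q ∣ Nat.card (A ⧸ B.subgroupOf A) := hB
  obtain ⟨z, hz⟩ := hCq.nonempty_fixed_point_of_prime_not_dvd_card _ hcard
  obtain ⟨a, rfl⟩ := QuotientGroup.mk_surjective z
  refine ⟨a, a.2, fun x hx => ?_⟩
  have h1 := hz ⟨x, hx⟩
  have h2 : (QuotientGroup.mk (φ ⟨x, hx⟩ * a) : A ⧸ B.subgroupOf A) = QuotientGroup.mk a := h1
  have h3 := QuotientGroup.eq.1 h2.symm
  rw [Subgroup.mem_subgroupOf] at h3
  simpa [φ, mul_assoc] using h3

/-- a `q`-subgroup is contained in a `q`-subgroup of index prime to `q` -/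
lemma fin_exists [Finite Γ] [Fact q.Prime] {A C : Subgroup Γ} (hC : C ≤ A)
    (hCq : IsPGroup q C) : ∃ B, C ≤ B ∧ B ≤ A ∧ IsPGroup q B ∧ ¬ q ∣ B.relIndex A := by
  have h1 : IsPGroup q (C.subgroupOf A) := hCq.comap_of_injective A.subtype A.subtype_injective
  obtain ⟨Q, hQ⟩ := h1.exists_le_sylow
  refine ⟨(Q : Subgroup A).map A.subtype, ?_, Subgroup.map_subtype_le _, Q.2.map _, ?_⟩
  · calc C = (C.subgroupOf A).map A.subtype := (Subgroup.map_subgroupOf_eq_of_le hC).symm
      _ ≤ _ := Subgroup.map_mono hQ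
  · rw [Subgroup.relIndex, Subgroup.subgroupOf,
      Subgroup.comap_map_eq_self_of_injective A.subtype_injective]
    exact Q.not_dvd_index

end fin

variable {G : Type*} [Group G] [TopologicalSpace G]

/-- the subgroup `P` of the profinite group `G` is pro-`q`: its images in the finite quotients
of `G` are `q`-groups -/
def IsPro (q : ℕ) (P : Subgroup G) : Prop :=
  ∀ (N : Subgroup G) [N.Normal], IsOpen (N : Set G) → IsPGroup q (P.map (QuotientGroup.mk' N))

/-- `P` is a `q`-Sylow subgroup of the closed subgroup `H` of `G` -/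
structure IsSyl (q : ℕ) (H P : Subgroup G) : Prop where
  closed : IsClosed (P : Set G)
  le : P ≤ H
  pro : IsPro q P
  index : ∀ (N : Subgroup G) [N.Normal], IsOpen (N : Set G) → ¬ q ∣ (P ⊔ N).relIndex H

omit [TopologicalSpace G] in
lemma relIndex_map_mk (P H N : Subgroup G) [N.Normal] :
    (P.map (QuotientGroup.mk' N)).relIndex (H.map (QuotientGroup.mk' N)) =
      (P ⊔ N).relIndex H := by
  rw [← Subgroup.relIndex_comap, Subgroup.comap_map_eq, QuotientGroup.ker_mk']

lemma IsPro.mono {q : ℕ} {P P' : Subgroup G} (h : IsPro q P') (hP : P ≤ P') : IsPro q P :=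
  fun N _ hN => (h N hN).to_le (Subgroup.map_mono hP)

variable [IsTopologicalGroup G]

lemma isClosed_of_le {N H : Subgroup G} (hN : IsOpen (N : Set G)) (h : N ≤ H) :
    IsClosed (H : Set G) :=
  Subgroup.isClosed_of_isOpen H (Subgroup.isOpen_mono h hN)

variable [CompactSpace G]

omit [IsTopologicalGroup G] in
/-- compactness: a decreasing family of nonempty closed sets indexed by the open normal
subgroups has a common point -/
lemma exists_forall_mem (C : (N : Subgroup G) → Set G)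
    (hne : ∀ (N : Subgroup G) [N.Normal], IsOpen (N : Set G) → (C N).Nonempty)
    (hcl : ∀ (N : Subgroup G) [N.Normal], IsOpen (N : Set G) → IsClosed (C N))
    (hmono : ∀ (N M : Subgroup G) [N.Normal] [M.Normal], N ≤ M → C N ⊆ C M) :
    ∃ x, ∀ (N : Subgroup G) [N.Normal], IsOpen (N : Set G) → x ∈ C N := by
  let ι := {N : Subgroup G // N.Normal ∧ IsOpen (N : Set G)}
  have : Nonempty ι := ⟨⟨⊤, inferInstance, isOpen_univ⟩⟩
  obtain ⟨x, hx⟩ := IsCompact.nonempty_iInter_of_directed_nonempty_isCompact_isClosed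
    (fun N : ι => C N.1) (by
      intro N M
      have := N.2.1
      have := M.2.1
      refine ⟨⟨N.1 ⊓ M.1, inferInstance, ?_⟩, ?_, ?_⟩
      · rw [Subgroup.coe_inf]
        exact N.2.2.inter M.2.2
      · exact hmono _ _ inf_le_left
      · exact hmono _ _ inf_le_right)
    (fun N => by have := N.2.1; exact hne N.1 N.2.2)
    (fun N => by have := N.2.1; exact (hcl N.1 N.2.2).isCompact)
    (fun N => by have := N.2.1; exact hcl N.1 N.2.2)
  refine ⟨x, fun N hN hNo => ?_⟩
  exact Set.mem_iInter.1 hx ⟨N, hN, hNo⟩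

variable [TotallyDisconnectedSpace G]

/-- closed subgroups are determined by their images in the finite quotients -/
lemma mem_of_forall {P : Subgroup G} (hP : IsClosed (P : Set G)) {x : G}
    (hx : ∀ (N : Subgroup G) [N.Normal], IsOpen (N : Set G) → x ∈ P ⊔ N) : x ∈ P := by
  by_contra hxP
  have h1 : IsOpen ((fun y => x * y) ⁻¹' ((P : Set G)ᶜ)) :=
    hP.isOpen_compl.preimage (continuous_const.mul continuous_id)
  obtain ⟨N, hN⟩ := ProfiniteGrp.exist_openNormalSubgroup_sub_open_nhds_of_one h1 (by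
    show x * 1 ∈ (P : Set G)ᶜ
    rw [mul_one]
    exact hxP)
  have h2 := hx N.toSubgroup N.isOpen'
  rw [← SetLike.mem_coe, Subgroup.mul_normal] at h2
  obtain ⟨y, hy, n, hn, rfl⟩ := h2
  have h3 : n⁻¹ ∈ (N : Set G) := N.toSubgroup.inv_mem hn
  have h4 := hN h3
  apply h4
  show y * n * n⁻¹ ∈ P
  rw [mul_inv_cancel_right]
  exact hy

lemma le_of_forall {P Q : Subgroup G} (hP : IsClosed (P : Set G))
    (h : ∀ (N : Subgroup G) [N.Normal], IsOpen (N : Set G) → Q ≤ P ⊔ N) : Q ≤ P :=
  fun _ hx => mem_of_forall hP fun N _ hN => h N hN hx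

/-- a pro-`q` subgroup of `H` is conjugate, by an element of `H`, to a subgroup of a given
closed subgroup of `H` of index prime to `q` -/
theorem exists_conj_le {q : ℕ} [Fact q.Prime] {H P Q : Subgroup G} (hH : IsClosed (H : Set G))
    (hP : IsClosed (P : Set G))
    (hPH : ∀ (N : Subgroup G) [N.Normal], IsOpen (N : Set G) → ¬ q ∣ (P ⊔ N).relIndex H)
    (hQ : Q ≤ H) (hQq : IsPro q Q) : ∃ h ∈ H, ∀ x ∈ Q, h⁻¹ * x * h ∈ P := by
  obtain ⟨h, hh⟩ := exists_forall_mem
    (fun N => {h : G | h ∈ H ∧ ∀ x ∈ Q, h⁻¹ * x * h ∈ P ⊔ N}) (by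
      intro N _ hN
      have hfin : Finite (G ⧸ N) := Subgroup.quotient_finite_of_isOpen N hN
      obtain ⟨a, ha, hax⟩ := fin_conj (A := H.map (QuotientGroup.mk' N))
        (B := P.map (QuotientGroup.mk' N)) (C := Q.map (QuotientGroup.mk' N)) (q := q)
        (by rw [relIndex_map_mk]; exact hPH N hN) (Subgroup.map_mono hQ) (hQq N hN)
      obtain ⟨h, hh, rfl⟩ := ha
      refine ⟨h, hh, fun x hx => ?_⟩
      have h1 := hax _ (Subgroup.mem_map_of_mem (QuotientGroup.mk' N) hx)
      rw [← map_inv, ← map_mul, ← map_mul, ← Subgroup.mem_comap, Subgroup.comap_map_eq,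
        QuotientGroup.ker_mk'] at h1
      exact h1) (by
      intro N _ hN
      have h1 : IsClosed ((P ⊔ N : Subgroup G) : Set G) := isClosed_of_le hN le_sup_right
      have h2 : {h : G | h ∈ H ∧ ∀ x ∈ Q, h⁻¹ * x * h ∈ P ⊔ N} =
          (H : Set G) ∩ ⋂ x ∈ Q, (fun h : G => h⁻¹ * x * h) ⁻¹' ((P ⊔ N : Subgroup G) : Set G) := by
        ext h
        simp
      rw [h2]
      refine hH.inter (isClosed_biInter fun x _ => h1.preimage ?_)
      fun_prop) (by
      intro N M _ _ hNM h hh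
      exact ⟨hh.1, fun x hx => sup_le_sup_left hNM P (hh.2 x hx)⟩)
  refine ⟨h, (hh ⊤ isOpen_univ).1, fun x hx => mem_of_forall hP fun N _ hN => (hh N hN).2 x hx⟩

lemma IsSyl.eq_of_le {q : ℕ} [Fact q.Prime] {H P P' : Subgroup G} (h : IsSyl q H P)
    (h' : IsSyl q H P') (hle : P ≤ P') : P = P' := by
  refine le_antisymm hle (le_of_forall h.closed fun N _ hN => ?_)
  have hfin : Finite (G ⧸ N) := Subgroup.quotient_finite_of_isOpen N hN
  have h1 : (P.map (QuotientGroup.mk' N)).relIndex (P'.map (QuotientGroup.mk' N)) *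
      (P'.map (QuotientGroup.mk' N)).relIndex (H.map (QuotientGroup.mk' N)) =
      (P.map (QuotientGroup.mk' N)).relIndex (H.map (QuotientGroup.mk' N)) :=
    Subgroup.relIndex_mul_relIndex _ _ _ (Subgroup.map_mono hle) (Subgroup.map_mono h'.le)
  have h2 : ¬ q ∣ (P.map (QuotientGroup.mk' N)).relIndex (P'.map (QuotientGroup.mk' N)) := by
    intro hd
    apply h.index N hN
    rw [← relIndex_map_mk, ← h1]
    exact Dvd.dvd.mul_right hd _
  have h3 : ∃ n, (P.map (QuotientGroup.mk' N)).relIndex (P'.map (QuotientGroup.mk' N)) = q ^ n := by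
    have := (h'.pro N hN).index ((P.map (QuotientGroup.mk' N)).subgroupOf
      (P'.map (QuotientGroup.mk' N)))
    exact this
  obtain ⟨n, hn⟩ := h3
  have hn0 : n = 0 := by
    by_contra hn0
    exact h2 (by rw [hn]; exact dvd_pow_self q hn0)
  rw [hn0, pow_zero, Subgroup.relIndex_eq_one] at hn
  intro x hx
  have h4 := hn (Subgroup.mem_map_of_mem (QuotientGroup.mk' N) hx)
  rwa [← Subgroup.mem_comap, Subgroup.comap_map_eq, QuotientGroup.ker_mk'] at h4

/-- conjugation by `g` -/
abbrev cj (g : G) : G →* G := (MulAut.conj g).toMonoidHom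

omit [TopologicalSpace G] [IsTopologicalGroup G] [CompactSpace G]
  [TotallyDisconnectedSpace G] in
lemma cj_inj (g : G) : Function.Injective (cj g) := (MulAut.conj g).injective

omit [TopologicalSpace G] [IsTopologicalGroup G] [CompactSpace G]
  [TotallyDisconnectedSpace G] in
lemma mem_map_cj {P : Subgroup G} {g x : G} : x ∈ P.map (cj g) ↔ g⁻¹ * x * g ∈ P := by
  constructor
  · rintro ⟨y, hy, rfl⟩
    have : g⁻¹ * (cj g) y * g = y := by
      simp [cj, mul_assoc]
    rw [this]
    exact hy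
  · intro h
    exact ⟨_, h, by simp [cj, mul_assoc]⟩

omit [TopologicalSpace G] [IsTopologicalGroup G] [CompactSpace G]
  [TotallyDisconnectedSpace G] in
lemma map_cj_eq_of_normal (N : Subgroup G) [N.Normal] (g : G) : N.map (cj g) = N := by
  ext x
  rw [mem_map_cj]
  constructor
  · intro h
    have := ‹N.Normal›.conj_mem _ h g
    simpa [mul_assoc] using this
  · intro h
    have := ‹N.Normal›.conj_mem _ h g⁻¹
    simpa [mul_assoc] using this

omit [IsTopologicalGroup G] [CompactSpace G] [TotallyDisconnectedSpace G] in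
lemma IsPro.map_cj {q : ℕ} {P : Subgroup G} (h : IsPro q P) (g : G) : IsPro q (P.map (cj g)) := by
  intro N _ hN
  have h1 : (P.map (cj g)).map (QuotientGroup.mk' N) =
      (P.map (QuotientGroup.mk' N)).map (cj (QuotientGroup.mk' N g)) := by
    rw [Subgroup.map_map, Subgroup.map_map]
    congr 1
  rw [h1]
  exact (h N hN).map _

omit [CompactSpace G] [TotallyDisconnectedSpace G] in
/-- conjugates of Sylow subgroups -/
lemma IsSyl.map_cj {q : ℕ} {H P : Subgroup G} (h : IsSyl q H P) {g : G}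
    (hg : H.map (cj g) = H) : IsSyl q H (P.map (cj g)) where
  closed := by
    have h1 : ((P.map (cj g) : Subgroup G) : Set G) = (fun x => g⁻¹ * x * g) ⁻¹' (P : Set G) := by
      ext x
      exact mem_map_cj
    rw [h1]
    exact h.closed.preimage (by fun_prop)
  le := by
    rw [← hg]
    exact Subgroup.map_mono h.le
  pro := h.pro.map_cj g
  index := by
    intro N _ hN
    have h1 : P.map (cj g) ⊔ N = (P ⊔ N).map (cj g) := by
      rw [Subgroup.map_sup, map_cj_eq_of_normal N]
    rw [h1]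
    have h2 := Subgroup.relIndex_map_map_of_injective (P ⊔ N) H (cj_inj g)
    rw [hg] at h2
    rw [h2]
    exact h.index N hN

/-- two Sylow subgroups are conjugate -/
theorem IsSyl.conj {q : ℕ} [Fact q.Prime] {H P P' : Subgroup G} (hH : IsClosed (H : Set G))
    (h : IsSyl q H P) (h' : IsSyl q H P') : ∃ g ∈ H, P' = P.map (cj g) := by
  obtain ⟨g, hg, hx⟩ := exists_conj_le hH h.closed h.index h'.le h'.pro
  have hgH : H.map (cj g) = H := by
    ext x
    rw [mem_map_cj]
    constructor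
    · intro h1
      have := H.mul_mem (H.mul_mem hg h1) (H.inv_mem hg)
      simpa [mul_assoc] using this
    · intro h1
      exact H.mul_mem (H.mul_mem (H.inv_mem hg) h1) hg
  refine ⟨g, hg, h'.eq_of_le (h.map_cj hgH) fun x hx' => ?_⟩
  rw [mem_map_cj]
  exact hx x hx'

/-- Frattini argument -/
theorem IsSyl.frattini {q : ℕ} [Fact q.Prime] {H P : Subgroup G} (hH : IsClosed (H : Set G))
    (h : IsSyl q H P) {g : G} (hg : ∀ x, x ∈ H ↔ g⁻¹ * x * g ∈ H) :
    ∃ y ∈ H, y * g ∈ Subgroup.normalizer (P : Set G) := by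
  have hgH : H.map (cj g) = H := by
    ext x
    rw [mem_map_cj, ← hg]
  obtain ⟨y, hy, hyP⟩ := IsSyl.conj hH (h.map_cj hgH) h
  refine ⟨y, hy, ?_⟩
  rw [Subgroup.mem_normalizer_iff]
  intro x
  have h1 : y * g * x * (y * g)⁻¹ ∈ P ↔ y * g * x * (y * g)⁻¹ ∈ (P.map (cj g)).map (cj y) := by
    rw [← hyP]
  rw [h1, mem_map_cj, mem_map_cj]
  have h2 : g⁻¹ * (y⁻¹ * (y * g * x * (y * g)⁻¹) * y) * g = x := by group
  rw [h2]

omit [IsTopologicalGroup G] [CompactSpace G] [TotallyDisconnectedSpace G] in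
/-- a Sylow subgroup of `H` is a Sylow subgroup of each smaller subgroup containing it -/
lemma IsSyl.of_le {q : ℕ} {H H' P : Subgroup G} (h : IsSyl q H P) (hP : P ≤ H') (hH : H' ≤ H) :
    IsSyl q H' P where
  closed := h.closed
  le := hP
  pro := h.pro
  index := by
    intro N _ hN hd
    apply h.index N hN
    rw [← relIndex_map_mk] at hd ⊢
    rw [← Subgroup.relIndex_mul_relIndex _ _ _ (Subgroup.map_mono hP) (Subgroup.map_mono hH)]
    exact hd.mul_right _

/-- pro-`p` and pro-`q` closed subgroups meet trivially -/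
lemma IsPro.inf_eq_bot {p q : ℕ} [Fact p.Prime] [Fact q.Prime] (hpq : p ≠ q) {P Q : Subgroup G}
    (hP : IsPro p P) (hQ : IsPro q Q) : P ⊓ Q = ⊥ := by
  refine le_antisymm ?_ bot_le
  have hcl : IsClosed ((⊥ : Subgroup G) : Set G) := by
    rw [Subgroup.coe_bot]
    exact isClosed_singleton
  refine le_of_forall hcl fun N _ hN x hx => ?_
  rw [bot_sup_eq]
  obtain ⟨hxP, hxQ⟩ := hx
  obtain ⟨a, ha⟩ := (IsPGroup.iff_orderOf.1 (hP N hN)) ⟨_, Subgroup.mem_map_of_mem _ hxP⟩
  obtain ⟨b, hb⟩ := (IsPGroup.iff_orderOf.1 (hQ N hN)) ⟨_, Subgroup.mem_map_of_mem _ hxQ⟩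
  rw [← Subgroup.orderOf_coe] at ha hb
  have hab : p ^ a = q ^ b := ha.symm.trans hb
  have hcop : Nat.Coprime (p ^ a) (q ^ b) :=
    Nat.Coprime.pow _ _ ((Nat.coprime_primes Fact.out Fact.out).2 hpq)
  have h1 : p ^ a = 1 := by
    rw [hab, Nat.coprime_self] at hcop
    rw [hab]
    exact hcop
  rw [h1, orderOf_eq_one_iff] at ha
  exact (QuotientGroup.eq_one_iff x).1 ha

end P025H281
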