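import Vale.Agent.P025.R2.H281.Syl

/-! # Existence of Sylow subgroups of profinite groups -/

namespace P025H281

variable {G : Type*} [Group G] [TopologicalSpace G] [IsTopologicalGroup G] [CompactSpace G]
  [TotallyDisconnectedSpace G]

omit [TotallyDisconnectedSpace G] in
/-- the image of the intersection of a chain of closed subgroups in a finite quotient -/
lemma map_sInf_chain {c : Set (Subgroup G)} (hne : c.Nonempty) (hc : IsChain (· ≤ ·) c)
    (hcl : ∀ K ∈ c, IsClosed (K : Set G)) (N : Subgroup G) [N.Normal] (hN : IsOpen (N : Set G)) :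
    ∃ K ∈ c, (sInf c).map (QuotientGroup.mk' N) = K.map (QuotientGroup.mk' N) := by
  have hfin : Finite (G ⧸ N) := Subgroup.quotient_finite_of_isOpen N hN
  obtain ⟨K₁, hK₁, hmin⟩ : ∃ K₁ ∈ c, ∀ K ∈ c,
      K₁.map (QuotientGroup.mk' N) ≤ K.map (QuotientGroup.mk' N) := by
    obtain ⟨_, ⟨K₁, hK₁, rfl⟩, hK₁'⟩ := WellFounded.has_min
      (wellFounded_lt : WellFounded ((· < ·) : ℕ → ℕ → Prop))
      ((fun K : Subgroup G => Nat.card (K.map (QuotientGroup.mk' N))) '' c) (hne.image _)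
    refine ⟨K₁, hK₁, fun K hK => ?_⟩
    rcases hc.total hK₁ hK with h1 | h1
    · exact Subgroup.map_mono h1
    · have h2 : K.map (QuotientGroup.mk' N) ≤ K₁.map (QuotientGroup.mk' N) :=
        Subgroup.map_mono h1
      have h3 := hK₁' _ ⟨K, hK, rfl⟩
      exact (Subgroup.eq_of_le_of_card_ge h2 (not_lt.1 h3)).ge
  refine ⟨K₁, hK₁, le_antisymm (Subgroup.map_mono (sInf_le hK₁)) ?_⟩
  rintro _ ⟨x, hx, rfl⟩
  have : Nonempty c := hne.to_subtype
  obtain ⟨y, hy⟩ := IsCompact.nonempty_iInter_of_directed_nonempty_isCompact_isClosed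
    (fun K : c => (K.1 : Set G) ∩ {y | x⁻¹ * y ∈ N}) (by
      intro K K'
      rcases hc.total K.2 K'.2 with h1 | h1
      · exact ⟨K, subset_rfl, Set.inter_subset_inter_left _ h1⟩
      · exact ⟨K', Set.inter_subset_inter_left _ h1, subset_rfl⟩)
    (by
      intro K
      obtain ⟨y, hy, hxy⟩ := hmin K.1 K.2 ⟨x, hx, rfl⟩
      refine ⟨y, hy, ?_⟩
      exact QuotientGroup.eq.1 (show (QuotientGroup.mk x : G ⧸ N) = QuotientGroup.mk y from
        hxy.symm))
    (fun K => ((hcl K.1 K.2).inter ((Subgroup.isClosed_of_isOpen N hN).preimage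
      (by fun_prop : Continuous fun y => x⁻¹ * y))).isCompact)
    (fun K => (hcl K.1 K.2).inter ((Subgroup.isClosed_of_isOpen N hN).preimage
      (by fun_prop : Continuous fun y => x⁻¹ * y)))
  rw [Set.mem_iInter] at hy
  refine ⟨y, ?_, ?_⟩
  · rw [SetLike.mem_coe, Subgroup.mem_sInf]
    exact fun K hK => (hy ⟨K, hK⟩).1
  · exact (QuotientGroup.eq.2 (hy ⟨K₁, hK₁⟩).2).symm

omit [TotallyDisconnectedSpace G] in
/-- **existence of Sylow subgroups**: a closed pro-`q` subgroup of the closed subgroup `H` is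
contained in a `q`-Sylow subgroup of `H` -/
theorem exists_isSyl (q : ℕ) [Fact q.Prime] {H P₀ : Subgroup G} (hH : IsClosed (H : Set G))
    (hP : P₀ ≤ H) (hPq : IsPro q P₀) : ∃ P, P₀ ≤ P ∧ IsSyl q H P := by
  have hq : q.Prime := Fact.out
  let S : Set (Subgroup G) := {K | IsClosed (K : Set G) ∧ P₀ ≤ K ∧ K ≤ H ∧
    ∀ (N : Subgroup G) [N.Normal], IsOpen (N : Set G) → ¬ q ∣ (K ⊔ N).relIndex H}
  have hHS : H ∈ S := by
    refine ⟨hH, hP, le_rfl, fun N _ _ => ?_⟩
    rw [Subgroup.relIndex_eq_one.2 le_sup_left]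
    exact hq.one_lt.ne' ∘ Nat.dvd_one.1
  obtain ⟨K, hK⟩ : ∃ K, Minimal (· ∈ S) K := by
    refine @zorn_le₀ (Subgroup G)ᵒᵈ _ S fun c hcS hc => ?_
    change Set (Subgroup G) at c
    have hc' : IsChain (· ≤ ·) (c : Set (Subgroup G)) := hc.symm
    rcases Set.eq_empty_or_nonempty c with rfl | hne
    · exact ⟨H, hHS, fun z hz => absurd hz (Set.notMem_empty z)⟩
    refine ⟨(sInf c : Subgroup G), ⟨?_, ?_, ?_, ?_⟩, fun z hz =>
      (show @LE.le (Subgroup G) _ (sInf c) z from sInf_le hz)⟩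
    · rw [Subgroup.coe_sInf]
      exact isClosed_biInter fun K hK => (hcS hK).1
    · exact le_sInf fun K hK => (hcS hK).2.1
    · obtain ⟨K, hK⟩ := hne
      exact (sInf_le hK).trans (hcS hK).2.2.1
    · intro N _ hN
      obtain ⟨K, hK, hKN⟩ := map_sInf_chain hne hc' (fun K hK => (hcS hK).1) N hN
      rw [← relIndex_map_mk, hKN, relIndex_map_mk]
      exact (hcS hK).2.2.2 N hN
  obtain ⟨⟨hKc, hPK, hKH, hKi⟩, hmin⟩ := hK
  refine ⟨K, hPK, hKc, hKH, ?_, hKi⟩
  intro N _ hN
  have hfin : Finite (G ⧸ N) := Subgroup.quotient_finite_of_isOpen N hN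
  obtain ⟨B, hCB, hBA, hBq, hBi⟩ := fin_exists (q := q)
    (Subgroup.map_mono hPK : P₀.map (QuotientGroup.mk' N) ≤ K.map (QuotientGroup.mk' N))
    (hPq N hN)
  set K' : Subgroup G := K ⊓ B.comap (QuotientGroup.mk' N) with hK'
  have hNB : N ≤ B.comap (QuotientGroup.mk' N) := by
    intro x hx
    rw [Subgroup.mem_comap, QuotientGroup.mk'_apply, (QuotientGroup.eq_one_iff x).2 hx]
    exact B.one_mem
  have hK'K : K' ≤ K := inf_le_left
  have hrel : K'.relIndex K = B.relIndex (K.map (QuotientGroup.mk' N)) := by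
    rw [hK', inf_comm, Subgroup.inf_relIndex_right, Subgroup.relIndex_comap]
  have hK'S : K' ∈ S := by
    refine ⟨?_, ?_, hK'K.trans hKH, ?_⟩
    · rw [hK', Subgroup.coe_inf]
      exact hKc.inter (isClosed_of_le hN hNB)
    · refine le_inf hPK ?_
      rw [← Subgroup.map_le_iff_le_comap]
      exact hCB
    · intro M _ hM hd
      have hM' : IsOpen ((M ⊓ N : Subgroup G) : Set G) := by
        rw [Subgroup.coe_inf]
        exact hM.inter hN
      have hd' : q ∣ (K' ⊔ (M ⊓ N)).relIndex H :=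
        hd.trans (Subgroup.relIndex_dvd_of_le_left H (sup_le_sup_left inf_le_left K'))
      rw [← relIndex_map_mk, ← Subgroup.relIndex_mul_relIndex _ _ _ (Subgroup.map_mono hK'K)
        (Subgroup.map_mono hKH), relIndex_map_mk, relIndex_map_mk] at hd'
      rcases (Nat.Prime.dvd_mul hq).1 hd' with h1 | h1
      · have h2 : (K' ⊔ (M ⊓ N)) ⊓ K = K' := by
          refine le_antisymm ?_ (le_inf le_sup_left hK'K)
          intro x hx0
          have hx : x ∈ ((K' ⊔ (M ⊓ N) : Subgroup G) : Set G) := hx0.1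
          have hxK : x ∈ K := hx0.2
          rw [Subgroup.mul_normal] at hx
          obtain ⟨y, hy, n, hn, rfl⟩ := hx
          refine K'.mul_mem hy ⟨?_, hNB hn.2⟩
          have h3 := K.mul_mem (K.inv_mem (hK'K hy)) hxK
          simpa using h3
        rw [← Subgroup.inf_relIndex_right, h2, hrel] at h1
        exact hBi h1
      · exact hKi _ hM' h1
  have hKK' : K ≤ K' := hmin hK'S hK'K
  have hKB : K.map (QuotientGroup.mk' N) ≤ B := by
    rw [Subgroup.map_le_iff_le_comap]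
    exact hKK'.trans inf_le_right
  exact hBq.to_le hKB

/-- open subgroups of a pro-`q` subgroup `P` have index a power of `q` -/
lemma IsPro.index_eq {q : ℕ} [Fact q.Prime] {P : Subgroup G} (hP : IsPro q P) (U : Subgroup P)
    (hU : IsOpen (U : Set P)) : ∃ n : ℕ, U.index = q ^ n := by
  obtain ⟨V, hV, hVU⟩ := isOpen_induced_iff.1 hU
  obtain ⟨N, hN⟩ := ProfiniteGrp.exist_openNormalSubgroup_sub_open_nhds_of_one hV (by
    have : (1 : P) ∈ Subtype.val ⁻¹' V := by
      rw [hVU]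
      exact U.one_mem
    exact this)
  have hle : N.toSubgroup.subgroupOf P ≤ U := by
    intro x hx
    rw [Subgroup.mem_subgroupOf] at hx
    have : x ∈ Subtype.val ⁻¹' V := hN hx
    rw [hVU] at this
    exact this
  have h1 : ∃ m, N.toSubgroup.relIndex P = q ^ m := by
    have hfin : Finite (G ⧸ N.toSubgroup) :=
      Subgroup.quotient_finite_of_isOpen N.toSubgroup N.isOpen'
    have h2 := (IsPGroup.iff_card.1 (hP N.toSubgroup N.isOpen'))
    obtain ⟨m, hm⟩ := h2
    refine ⟨m, ?_⟩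
    rw [← hm]
    have h3 : N.toSubgroup = (⊥ : Subgroup (G ⧸ N.toSubgroup)).comap
        (QuotientGroup.mk' N.toSubgroup) := by
      rw [MonoidHom.comap_bot, QuotientGroup.ker_mk']
    conv_lhs => rw [h3]
    rw [Subgroup.relIndex_comap, Subgroup.relIndex_bot_left]
  obtain ⟨m, hm⟩ := h1
  have h4 : U.index ∣ q ^ m := by
    rw [← hm]
    exact Subgroup.index_dvd_of_le hle
  exact ⟨_, ((Nat.dvd_prime_pow Fact.out).1 h4).choose_spec.2⟩

end P025H281
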