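import Vale.Agent.P025.R2.H281.SylEx

/-! # Inertia and wild inertia -/

namespace P025H281

/-! ### congruences modulo elements of norm less than one -/

section cong

variable {Ω : Type*} [NormedField Ω] [IsUltrametricDist Ω]

lemma norm_add_le_mx (a b : Ω) : ‖a + b‖ ≤ max ‖a‖ ‖b‖ := IsUltrametricDist.norm_add_le_max a b

lemma norm_sub_le_mx (a b : Ω) : ‖a - b‖ ≤ max ‖a‖ ‖b‖ := by
  rw [sub_eq_add_neg, ← norm_neg b]
  exact norm_add_le_mx a (-b)

/-- congruence modulo elements of norm less than one -/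
def Cg (a b : Ω) : Prop := ‖a - b‖ < 1

omit [IsUltrametricDist Ω] in
lemma Cg.refl (a : Ω) : Cg a a := by simp [Cg]

omit [IsUltrametricDist Ω] in
lemma Cg.symm {a b : Ω} (h : Cg a b) : Cg b a := by
  unfold Cg at *
  rwa [norm_sub_rev]

lemma Cg.trans {a b c : Ω} (h : Cg a b) (h' : Cg b c) : Cg a c := by
  unfold Cg at *
  have : a - c = (a - b) + (b - c) := by ring
  rw [this]
  exact (norm_add_le_mx _ _).trans_lt (max_lt h h')

lemma Cg.norm_le {a b : Ω} (h : Cg a b) (hb : ‖b‖ ≤ 1) : ‖a‖ ≤ 1 := by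
  have : a = (a - b) + b := by ring
  rw [this]
  exact (norm_add_le_mx _ _).trans (max_le h.le hb)

lemma Cg.norm_eq {a b : Ω} (h : Cg a b) (hb : ‖b‖ = 1) : ‖a‖ = 1 := by
  refine le_antisymm (h.norm_le hb.le) ?_
  by_contra hlt
  push Not at hlt
  have h1 : b = a - (a - b) := by ring
  have h2 : ‖b‖ < 1 := by
    rw [h1]
    exact (norm_sub_le_mx _ _).trans_lt (max_lt hlt h)
  exact absurd hb h2.ne

lemma Cg.add {a b c d : Ω} (h : Cg a b) (h' : Cg c d) : Cg (a + c) (b + d) := by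
  unfold Cg at *
  have : a + c - (b + d) = (a - b) + (c - d) := by ring
  rw [this]
  exact (norm_add_le_mx _ _).trans_lt (max_lt h h')

lemma Cg.mul {a b c d : Ω} (h : Cg a b) (h' : Cg c d) (ha : ‖a‖ ≤ 1) (hd : ‖d‖ ≤ 1) :
    Cg (a * c) (b * d) := by
  unfold Cg at *
  have : a * c - b * d = a * (c - d) + (a - b) * d := by ring
  rw [this]
  refine (norm_add_le_mx _ _).trans_lt (max_lt ?_ ?_)
  · rw [norm_mul]
    exact (mul_le_of_le_one_left (norm_nonneg _) ha).trans_lt h'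
  · rw [norm_mul]
    exact (mul_le_of_le_one_right (norm_nonneg _) hd).trans_lt h

lemma Cg.pow {a b : Ω} (h : Cg a b) (hb : ‖b‖ ≤ 1) (n : ℕ) : Cg (a ^ n) (b ^ n) := by
  induction n with
  | zero => simpa using Cg.refl (1 : Ω)
  | succ n ih =>
    rw [pow_succ, pow_succ]
    refine ih.mul h ?_ hb
    rw [norm_pow]
    exact pow_le_one₀ (norm_nonneg _) (h.norm_le hb)

omit [IsUltrametricDist Ω] in
lemma Cg.div_one {a b : Ω} (h : Cg a b) (hb : ‖b‖ = 1) : Cg (a / b) 1 := by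
  unfold Cg at *
  have hb0 : b ≠ 0 := by
    rintro rfl
    rw [norm_zero] at hb
    exact zero_ne_one hb
  have : a / b - 1 = (a - b) / b := by field_simp
  rw [this, norm_div, hb, _root_.div_one]
  exact h

lemma norm_aeval_le_one (f : Polynomial ℤ) {b : Ω} (hb : ‖b‖ ≤ 1) :
    ‖Polynomial.aeval b f‖ ≤ 1 := by
  induction f using Polynomial.induction_on' with
  | add f g hf hg =>
    rw [map_add]
    exact (norm_add_le_mx _ _).trans (max_le hf hg)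
  | monomial n a =>
    rw [Polynomial.aeval_monomial, norm_mul, norm_pow]
    refine mul_le_one₀ ?_ (by positivity) (pow_le_one₀ (norm_nonneg _) hb)
    rw [eq_intCast]
    exact IsUltrametricDist.norm_intCast_le_one Ω a

/-- `p`-power roots of one modulo elements of norm less than one -/
lemma Cg.of_pow {p : ℕ} (hpp : p.Prime) (hp : ‖(p : Ω)‖ < 1) {a : Ω} (ha : ‖a‖ ≤ 1) {n : ℕ}
    (h : Cg (a ^ p ^ n) 1) : Cg a 1 := by
  have key : ∀ a : Ω, ‖a‖ ≤ 1 → Cg (a ^ p) 1 → Cg a 1 := by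
    intro a ha h
    unfold Cg at *
    obtain ⟨r, hr⟩ := exists_add_pow_prime_eq hpp (1 : Polynomial ℤ) Polynomial.X
    have hr' := congrArg (Polynomial.aeval (a - 1)) hr
    simp only [map_pow, map_add, map_mul, map_one, map_natCast, Polynomial.aeval_X, one_pow,
      mul_one] at hr'
    have h1 : ‖a - 1‖ ≤ 1 := (norm_sub_le_mx _ _).trans (max_le ha (by rw [norm_one]))
    have h2 : (a - 1) ^ p = (a ^ p - 1) - p * (a - 1) * Polynomial.aeval (a - 1) r := by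
      have h3 : (1 : Ω) + (a - 1) = a := by ring
      rw [h3] at hr'
      rw [hr']
      ring
    have h4 : ‖(a - 1) ^ p‖ < 1 := by
      rw [h2]
      refine (norm_sub_le_mx _ _).trans_lt (max_lt h ?_)
      rw [norm_mul, norm_mul]
      have h5 := norm_aeval_le_one r h1
      calc ‖(p : Ω)‖ * ‖a - 1‖ * ‖Polynomial.aeval (a - 1) r‖ ≤ ‖(p : Ω)‖ * 1 * 1 := by
            gcongr
        _ < 1 := by rw [mul_one, mul_one]; exact hp
    rw [norm_pow] at h4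
    by_contra hcon
    exact absurd h4 (not_lt.2 (one_le_pow₀ (not_lt.1 hcon)))
  induction n with
  | zero => simpa using h
  | succ n ih =>
    refine ih (key _ ?_ ?_)
    · rw [norm_pow]
      exact pow_le_one₀ (norm_nonneg _) ha
    · rwa [← pow_mul, ← pow_succ]

lemma norm_natCast_eq_one {p : ℕ} (hpp : p.Prime) (hp : ‖(p : Ω)‖ < 1) {m : ℕ} (hm : ¬ p ∣ m) :
    ‖(m : Ω)‖ = 1 := by
  refine le_antisymm (IsUltrametricDist.norm_natCast_le_one Ω m) ?_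
  have hcop : IsCoprime (m : ℤ) (p : ℤ) :=
    Nat.isCoprime_iff_coprime.2 ((Nat.Prime.coprime_iff_not_dvd hpp).2 hm).symm
  obtain ⟨a, b, hab⟩ := hcop
  have h1 : (a : Ω) * (m : Ω) + (b : Ω) * (p : Ω) = 1 := by
    have := congrArg (Int.cast : ℤ → Ω) hab
    push_cast at this
    exact this
  by_contra hlt
  push Not at hlt
  have h2 : ‖(1 : Ω)‖ < 1 := by
    rw [← h1]
    refine (norm_add_le_mx _ _).trans_lt (max_lt ?_ ?_)
    · rw [norm_mul]
      exact (mul_le_of_le_one_left (norm_nonneg _)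
        (IsUltrametricDist.norm_intCast_le_one Ω a)).trans_lt hlt
    · rw [norm_mul]
      exact (mul_le_of_le_one_left (norm_nonneg _)
        (IsUltrametricDist.norm_intCast_le_one Ω b)).trans_lt hp
  rw [norm_one] at h2
  exact lt_irrefl _ h2

end cong

/-! ### the groups -/

section groups

variable (k Ω : Type*) [Field k] [NormedField Ω] [IsUltrametricDist Ω] [Algebra k Ω]

/-- the inertia group -/
def inertia : Subgroup Gal(Ω/k) where
  carrier := {σ | (∀ x, ‖σ x‖ = ‖x‖) ∧ ∀ x, ‖x‖ ≤ 1 → ‖σ x - x‖ < 1}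
  one_mem' := by simp
  mul_mem' := by
    rintro σ τ ⟨h1, h2⟩ ⟨h3, h4⟩
    refine ⟨fun x => by rw [AlgEquiv.mul_apply, h1, h3], fun x hx => ?_⟩
    have : (σ * τ) x - x = σ (τ x - x) + (σ x - x) := by
      rw [AlgEquiv.mul_apply, map_sub]
      ring
    rw [this]
    refine (norm_add_le_mx _ _).trans_lt (max_lt ?_ (h2 x hx))
    rw [h1]
    exact h4 x hx
  inv_mem' := by
    rintro σ ⟨h1, h2⟩
    have h0 : ∀ x, σ (σ⁻¹ x) = x := fun x => by
      rw [← AlgEquiv.mul_apply, mul_inv_cancel, AlgEquiv.one_apply]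
    have h3 : ∀ x, ‖σ⁻¹ x‖ = ‖x‖ := fun x => by
      rw [← h1 (σ⁻¹ x), h0]
    refine ⟨h3, fun x hx => ?_⟩
    have h4 := h2 (σ⁻¹ x) (by rwa [h3])
    rwa [h0, norm_sub_rev] at h4

/-- the wild inertia group -/
def wild : Subgroup Gal(Ω/k) where
  carrier := {σ | (∀ x, ‖σ x‖ = ‖x‖) ∧ ∀ x, x ≠ 0 → ‖σ x - x‖ < ‖x‖}
  one_mem' := by simp
  mul_mem' := by
    rintro σ τ ⟨h1, h2⟩ ⟨h3, h4⟩
    refine ⟨fun x => by rw [AlgEquiv.mul_apply, h1, h3], fun x hx => ?_⟩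
    have : (σ * τ) x - x = σ (τ x - x) + (σ x - x) := by
      rw [AlgEquiv.mul_apply, map_sub]
      ring
    rw [this]
    refine (norm_add_le_mx _ _).trans_lt (max_lt ?_ (h2 x hx))
    rw [h1]
    exact h4 x hx
  inv_mem' := by
    rintro σ ⟨h1, h2⟩
    have h0 : ∀ x, σ (σ⁻¹ x) = x := fun x => by
      rw [← AlgEquiv.mul_apply, mul_inv_cancel, AlgEquiv.one_apply]
    have h3 : ∀ x, ‖σ⁻¹ x‖ = ‖x‖ := fun x => by
      rw [← h1 (σ⁻¹ x), h0]
    refine ⟨h3, fun x hx => ?_⟩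
    have hx' : σ⁻¹ x ≠ 0 := (map_ne_zero _).2 hx
    have h4 := h2 (σ⁻¹ x) hx'
    rwa [h0, norm_sub_rev, h3] at h4

variable {k Ω}

lemma mem_inertia {σ : Gal(Ω/k)} :
    σ ∈ inertia k Ω ↔ (∀ x, ‖σ x‖ = ‖x‖) ∧ ∀ x, ‖x‖ ≤ 1 → ‖σ x - x‖ < 1 := Iff.rfl

lemma mem_wild {σ : Gal(Ω/k)} :
    σ ∈ wild k Ω ↔ (∀ x, ‖σ x‖ = ‖x‖) ∧ ∀ x, x ≠ 0 → ‖σ x - x‖ < ‖x‖ := Iff.rfl

lemma wild_le_inertia : wild k Ω ≤ inertia k Ω := by
  rintro σ ⟨h1, h2⟩
  refine ⟨h1, fun x hx => ?_⟩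
  by_cases h0 : x = 0
  · rw [h0, map_zero, sub_self, norm_zero]
    exact one_pos
  · exact (h2 x h0).trans_le hx

omit [IsUltrametricDist Ω] in
lemma inv_app (σ : Gal(Ω/k)) (x : Ω) : σ (σ⁻¹ x) = x := by
  rw [← AlgEquiv.mul_apply, mul_inv_cancel, AlgEquiv.one_apply]

omit [IsUltrametricDist Ω] in
lemma app_inv (σ : Gal(Ω/k)) (x : Ω) : σ⁻¹ (σ x) = x := by
  rw [← AlgEquiv.mul_apply, inv_mul_cancel, AlgEquiv.one_apply]

lemma inertia_normal (hG : ∀ (σ : Gal(Ω/k)) (x : Ω), ‖σ x‖ = ‖x‖) : (inertia k Ω).Normal where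
  conj_mem := by
    rintro σ ⟨h1, h2⟩ g
    refine ⟨fun x => hG _ x, fun x hx => ?_⟩
    have h3 : (g * σ * g⁻¹) x - x = g (σ (g⁻¹ x) - g⁻¹ x) := by
      rw [map_sub, inv_app]
      rfl
    rw [h3, hG]
    exact h2 _ (by rwa [hG])

lemma wild_normal (hG : ∀ (σ : Gal(Ω/k)) (x : Ω), ‖σ x‖ = ‖x‖) : (wild k Ω).Normal where
  conj_mem := by
    rintro σ ⟨h1, h2⟩ g
    refine ⟨fun x => hG _ x, fun x hx => ?_⟩
    have h3 : (g * σ * g⁻¹) x - x = g (σ (g⁻¹ x) - g⁻¹ x) := by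
      rw [map_sub, inv_app]
      rfl
    rw [h3, hG]
    have h4 := h2 (g⁻¹ x) ((map_ne_zero _).2 hx)
    rwa [hG g⁻¹ x] at h4

omit [IsUltrametricDist Ω] in
lemma isOpen_apply [Algebra.IsIntegral k Ω] (x : Ω) (s : Set Ω) :
    IsOpen {σ : Gal(Ω/k) | σ x ∈ s} := by
  rw [isOpen_iff_mem_nhds]
  intro σ hσ
  have h1 : IsOpen ((MulAction.stabilizer Gal(Ω/k) x : Subgroup Gal(Ω/k)) : Set Gal(Ω/k)) :=
    stabilizer_isOpen_of_isIntegral x
  have h2 : IsOpen ((fun τ : Gal(Ω/k) => σ⁻¹ * τ) ⁻¹'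
      ((MulAction.stabilizer Gal(Ω/k) x : Subgroup Gal(Ω/k)) : Set Gal(Ω/k))) :=
    h1.preimage (by fun_prop)
  refine Filter.mem_of_superset (h2.mem_nhds ?_) ?_
  · show σ⁻¹ * σ ∈ MulAction.stabilizer Gal(Ω/k) x
    rw [inv_mul_cancel]
    exact one_mem _
  · intro τ hτ
    have h3 : (σ⁻¹ * τ) x = x := hτ
    have h4 : τ x = σ x := by
      have := congrArg σ h3
      rwa [AlgEquiv.mul_apply, inv_app] at this
    show τ x ∈ s
    rw [h4]
    exact hσ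

omit [IsUltrametricDist Ω] in
lemma isClosed_apply [Algebra.IsIntegral k Ω] (x : Ω) (s : Set Ω) :
    IsClosed {σ : Gal(Ω/k) | σ x ∈ s} :=
  ⟨isOpen_apply x sᶜ⟩

lemma inertia_closed [Algebra.IsIntegral k Ω] :
    IsClosed ((inertia k Ω : Subgroup Gal(Ω/k)) : Set Gal(Ω/k)) := by
  have h1 : ((inertia k Ω : Subgroup Gal(Ω/k)) : Set Gal(Ω/k)) =
      (⋂ x : Ω, {σ | σ x ∈ {y : Ω | ‖y‖ = ‖x‖}}) ∩
        ⋂ (x : Ω) (_ : ‖x‖ ≤ 1), {σ | σ x ∈ {y : Ω | ‖y - x‖ < 1}} := by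
    ext σ
    simp [mem_inertia]
  rw [h1]
  exact (isClosed_iInter fun x => isClosed_apply x _).inter
    (isClosed_iInter fun x => isClosed_iInter fun _ => isClosed_apply x _)

lemma wild_closed [Algebra.IsIntegral k Ω] :
    IsClosed ((wild k Ω : Subgroup Gal(Ω/k)) : Set Gal(Ω/k)) := by
  have h1 : ((wild k Ω : Subgroup Gal(Ω/k)) : Set Gal(Ω/k)) =
      (⋂ x : Ω, {σ | σ x ∈ {y : Ω | ‖y‖ = ‖x‖}}) ∩
        ⋂ (x : Ω) (_ : x ≠ 0), {σ | σ x ∈ {y : Ω | ‖y - x‖ < ‖x‖}} := by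
    ext σ
    simp [mem_wild]
  rw [h1]
  exact (isClosed_iInter fun x => isClosed_apply x _).inter
    (isClosed_iInter fun x => isClosed_iInter fun _ => isClosed_apply x _)

end groups

end P025H281
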