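import Vale.Agent.P025.R2.H281.Gen

/-! # Elements fixed by inertia have the norms of fixed elements -/

open Polynomial

namespace P025H281

variable {p : ℕ} [Fact p.Prime] {k Ω : Type*} [Field k] [NormedField Ω] [IsUltrametricDist Ω]
  [Algebra k Ω]

lemma charP_res (hp : ‖(p : Ω)‖ < 1) : CharP (Oo Ω ⧸ mm Ω) p := by
  have : Nontrivial (Oo Ω ⧸ mm Ω) := inferInstance
  rw [CharP.charP_iff_prime_eq_zero Fact.out]
  have h1 : Ideal.Quotient.mk (mm Ω) ((p : Oo Ω)) = 0 := by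
    rw [Ideal.Quotient.eq_zero_iff_mem]
    show ‖((p : Oo Ω) : Ω)‖ < 1
    rw [Subring.coe_natCast]
    exact hp
  rwa [map_natCast] at h1

/-- the elements of `S` act on roots of unity of order prime to `p` through powers of the
Frobenius -/
lemma apply_root (h0 : Std p k Ω) {f : ℕ} {S : Subgroup Gal(Ω/k)} (h : ResF p f S)
    {σ : Gal(Ω/k)} (hσ : σ ∈ S) {m : ℕ} (hm : ¬ p ∣ m) {ζ : Ω} (hζ : ζ ^ m = 1) :
    ∃ j, σ ζ = ζ ^ (p ^ f) ^ j := by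
  classical
  have hpp : p.Prime := Fact.out
  have := charP_res (Ω := Ω) h0.lt
  have hm0 := ne_zero_of_not_dvd hm
  have hcop : Nat.Coprime (p ^ f) m := Nat.Coprime.pow_left _ ((hpp.coprime_iff_not_dvd).2 hm)
  set N := m.totient with hN
  have hNpos : 0 < N := Nat.totient_pos.2 (Nat.pos_of_ne_zero hm0)
  have hζN : ζ ^ (p ^ f) ^ N = ζ := by
    have := pow_eq_pow_of_modEq (Nat.ModEq.pow_totient hcop) hζ
    rwa [pow_one] at this
  have hn1 := norm_eq_one_of_pow hm0 hζ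
  set ζ₀ : Oo Ω := ⟨ζ, hn1.le⟩ with hζ₀
  set g : Polynomial (Oo Ω) := ∏ i ∈ Finset.range N, (X - C (ζ₀ ^ (p ^ f) ^ i)) with hg
  set z := Ideal.Quotient.mk (mm Ω) ζ₀ with hz
  have hgm : g.map (Ideal.Quotient.mk (mm Ω)) =
      ∏ i ∈ Finset.range N, (X - C (z ^ (p ^ f) ^ i)) := by
    rw [hg, Polynomial.map_prod]
    simp [hz]
  have hgF : (g.map (Ideal.Quotient.mk (mm Ω))).map (iterateFrobenius (Oo Ω ⧸ mm Ω) p f) =
      g.map (Ideal.Quotient.mk (mm Ω)) := by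
    rw [hgm, Polynomial.map_prod]
    have h1 : ∀ i, (X - C (z ^ (p ^ f) ^ i)).map (iterateFrobenius (Oo Ω ⧸ mm Ω) p f) =
        X - C (z ^ (p ^ f) ^ (i + 1)) := by
      intro i
      rw [Polynomial.map_sub, map_X, map_C, iterateFrobenius_def, ← pow_mul, ← pow_succ]
    simp only [h1]
    have h2 := Finset.prod_range_succ (fun i => (X - C (z ^ (p ^ f) ^ i))) N
    have h3 := Finset.prod_range_succ' (fun i => (X - C (z ^ (p ^ f) ^ i))) N
    have h4 : z ^ (p ^ f) ^ N = z := by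
      rw [hz, ← map_pow]
      congr 1
      exact Subtype.ext hζN
    rw [h4] at h2
    rw [pow_zero, pow_one] at h3
    exact mul_right_cancel₀ (X_sub_C_ne_zero z) (h3.symm.trans h2)
  have hfix : ∀ j, Cg (σ (g.coeff j : Ω)) (g.coeff j : Ω) := by
    intro j
    refine h.pow_fix _ (g.coeff j).2 ?_ σ hσ
    have h1 := congrArg (fun q => Polynomial.coeff q j) hgF
    simp only [coeff_map, iterateFrobenius_def] at h1
    rw [← map_pow, mk_eq_iff] at h1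
    exact h1
  set G : Polynomial Ω := g.map (Oo Ω).subtype with hG
  have hGprod : G = ∏ i ∈ Finset.range N, (X - C (ζ ^ (p ^ f) ^ i)) := by
    rw [hG, hg, Polynomial.map_prod]
    simp [hζ₀]
  have hGc : ∀ j, G.coeff j = (g.coeff j : Ω) := fun j => by rw [hG, coeff_map]; rfl
  have h1 : G.eval ζ = 0 := by
    rw [hGprod, eval_prod]
    exact Finset.prod_eq_zero (Finset.mem_range.2 hNpos) (by simp)
  have h2 : Cg (σ (G.eval ζ)) (G.eval (σ ζ)) := by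
    rw [eval_eq_sum_range, eval_eq_sum_range, map_sum]
    refine Cg.sum _ _ _ fun i _ => ?_
    rw [map_mul, map_pow]
    refine Cg.mul ?_ (Cg.refl _) ?_ ?_
    · rw [hGc]
      exact hfix i
    · rw [h0.isom, hGc]
      exact (g.coeff i).2
    · rw [norm_pow, h0.isom, hn1, one_pow]
  rw [h1, map_zero] at h2
  have h3 : ‖G.eval (σ ζ)‖ < 1 := by
    have := h2.symm
    unfold Cg at this
    rwa [sub_zero] at this
  rw [hGprod, eval_prod, norm_prod] at h3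
  obtain ⟨i, -, hi⟩ := exists_lt_of_prod _ _ h3
  rw [eval_sub, eval_X, eval_C] at hi
  refine ⟨i, root_unique hpp h0.lt hm ?_ ?_ hi⟩
  · rw [← map_pow, hζ, map_one]
  · rw [← pow_mul, mul_comm, pow_mul, hζ, one_pow]

omit [Fact p.Prime] in
/-- an element fixing all roots of unity of order prime to `p` belongs to the inertia group -/
lemma mem_inertia_of_root [IsAlgClosed Ω] (h0 : Std p k Ω) {σ : Gal(Ω/k)}
    (h : ∀ m, ¬ p ∣ m → ∀ ζ : Ω, ζ ^ m = 1 → σ ζ = ζ) : σ ∈ inertia k Ω := by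
  refine ⟨h0.isom σ, fun x hx => ?_⟩
  rcases hx.lt_or_eq with hlt | heq
  · refine (norm_sub_le_mx _ _).trans_lt (max_lt ?_ hlt)
    rwa [h0.isom]
  · obtain ⟨m, hm, hxm⟩ := h0.tors x heq
    obtain ⟨ζ, hζ, hxζ⟩ := exists_root (ne_zero_of_not_dvd hm) hxm
    have h2 := hxζ.map h0 σ
    rw [h m hm ζ hζ] at h2
    exact h2.trans hxζ.symm

lemma root_of_mem_inertia (h0 : Std p k Ω) {σ : Gal(Ω/k)} (hσ : σ ∈ inertia k Ω) {m : ℕ}
    (hm : ¬ p ∣ m) {ζ : Ω} (hζ : ζ ^ m = 1) : σ ζ = ζ := by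
  refine root_unique Fact.out h0.lt hm ?_ hζ
    (hσ.2 ζ (norm_eq_one_of_pow (ne_zero_of_not_dvd hm) hζ).le)
  rw [← map_pow, hζ, map_one]

/-- a Frobenius element and the inertia group generate `S` topologically -/
theorem fix_of_frob [IsAlgClosed Ω] [IsGalois k Ω] (h0 : Std p k Ω) {f : ℕ}
    {S : Subgroup Gal(Ω/k)} (hS : IsClosed (S : Set Gal(Ω/k))) (h : ResF p f S)
    {φ : Gal(Ω/k)} (hφS : φ ∈ S) (hφ : IsFrob φ (p ^ f)) {z : Ω}
    (hz : ∀ σ ∈ inertia k Ω ⊓ S, σ z = z) (hzφ : φ z = z) : ∀ σ ∈ S, σ z = z := by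
  have hpp : p.Prime := Fact.out
  let ι := {m : ℕ // ¬ p ∣ m}
  have : Nonempty ι := ⟨⟨1, hpp.one_lt.ne' ∘ Nat.dvd_one.1⟩⟩
  let C : ι → Set Gal(Ω/k) := fun m =>
    {τ | (τ ∈ S ∧ τ z ≠ z) ∧ ∀ ζ : Ω, ζ ^ m.1 = 1 → τ ζ = ζ}
  have hcl : ∀ m, IsClosed (C m) := by
    intro m
    have h1 : C m = ((S : Set Gal(Ω/k)) ∩ {τ : Gal(Ω/k) | τ z ∈ ({z}ᶜ : Set Ω)}) ∩
        ⋂ (ζ : Ω) (_ : ζ ^ m.1 = 1), {φ : Gal(Ω/k) | φ ζ ∈ ({ζ} : Set Ω)} := by
      ext φ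
      simp [C]
    rw [h1]
    exact (hS.inter (isClosed_apply z _)).inter
      (isClosed_iInter fun ζ => isClosed_iInter fun _ => isClosed_apply ζ _)
  obtain ⟨m, hm⟩ : ∃ m : ι, ¬ (C m).Nonempty := by
    by_contra hcon
    push Not at hcon
    obtain ⟨τ, hτ⟩ := IsCompact.nonempty_iInter_of_directed_nonempty_isCompact_isClosed C (by
      intro m m'
      refine ⟨⟨m.1 * m'.1, fun hd => ?_⟩, ?_, ?_⟩
      · rcases hpp.dvd_mul.1 hd with h1 | h1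
        · exact m.2 h1
        · exact m'.2 h1
      · rintro φ ⟨h1, h2⟩
        exact ⟨h1, fun ζ hζ => h2 ζ (by rw [pow_mul, hζ, one_pow])⟩
      · rintro φ ⟨h1, h2⟩
        exact ⟨h1, fun ζ hζ => h2 ζ (by rw [pow_mul', hζ, one_pow])⟩)
      (fun m => hcon m) (fun m => (hcl m).isCompact) hcl
    rw [Set.mem_iInter] at hτ
    have hτ1 := (hτ ⟨1, hpp.one_lt.ne' ∘ Nat.dvd_one.1⟩).1
    apply hτ1.2
    refine hz τ ⟨mem_inertia_of_root h0 fun m hm ζ hζ => (hτ ⟨m, hm⟩).2 ζ hζ, hτ1.1⟩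
  intro σ hσ
  obtain ⟨ζ, hζ⟩ := exists_prim (Ω := Ω) h0.lt m.2
  obtain ⟨j, hj⟩ := apply_root h0 h hσ m.2 hζ.pow_eq_one
  have hφj : (φ ^ j) ζ = ζ ^ (p ^ f) ^ j := (hφ.pow h0 j).root h0 m.2 hζ.pow_eq_one
  have hτS : (φ ^ j)⁻¹ * σ ∈ S := S.mul_mem (S.inv_mem (S.pow_mem hφS j)) hσ
  have hτζ : ((φ ^ j)⁻¹ * σ) ζ = ζ := by
    rw [AlgEquiv.mul_apply, hj, ← hφj, app_inv]
  have hτz : ((φ ^ j)⁻¹ * σ) z = z := by
    by_contra hne
    refine hm ⟨(φ ^ j)⁻¹ * σ, ⟨hτS, hne⟩, fun η hη => ?_⟩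
    have : NeZero m.1 := ⟨ne_zero_of_not_dvd m.2⟩
    obtain ⟨i, -, rfl⟩ := hζ.eq_pow_of_pow_eq_one hη
    rw [map_pow, hτζ]
  have hφjz : (φ ^ j) z = z := by
    clear hj hφj hτS hτζ hτz
    induction j with
    | zero => rfl
    | succ j ih => rw [pow_succ', AlgEquiv.mul_apply, ih, hzφ]
  have h1 := congrArg (φ ^ j) hτz
  rwa [AlgEquiv.mul_apply, inv_app, hφjz] at h1

end P025H281
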