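import Vale.Agent.P025.R2.H281.Unr

/-! # Values of the elements fixed by a Sylow subgroup of inertia -/

open Polynomial

namespace P025H281

variable {p : ℕ} [Fact p.Prime] {k Ω : Type*} [Field k] [NormedField Ω] [IsUltrametricDist Ω]
  [Algebra k Ω]

/-- a nonzero additive polynomial of small degree does not vanish on all residues -/
lemma exists_unit_sum [IsAlgClosed Ω] (h0 : Std p k Ω) {f : ℕ} (hf : 0 < f) {n : ℕ} (hn : 0 < n)
    (c : ℕ → Ω) (hc : ∀ i, ‖c i‖ = 1) :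
    ∃ b : Ω, (b = 0 ∨ b ^ ((p ^ f) ^ n - 1) = 1) ∧
      ‖∑ i ∈ Finset.range n, c i * b ^ (p ^ f) ^ i‖ = 1 := by
  classical
  have hpp : p.Prime := Fact.out
  set Q := p ^ f with hQ
  have hQ1 : 1 < Q := Nat.one_lt_pow hf.ne' hpp.one_lt
  set M := Q ^ n - 1 with hM
  have hQn : 1 < Q ^ n := Nat.one_lt_pow hn.ne' hQ1
  have hM1 : M + 1 = Q ^ n := Nat.sub_add_cancel hQn.le
  have hpM : ¬ p ∣ M := by
    intro hd
    have h1 : p ∣ M + 1 := by
      rw [hM1, hQ, ← pow_mul]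
      exact dvd_pow_self p (Nat.mul_ne_zero hf.ne' hn.ne')
    exact hpp.one_lt.ne' (Nat.dvd_one.1 ((Nat.dvd_add_right hd).1 h1))
  obtain ⟨ξ, hξ⟩ := exists_prim (Ω := Ω) h0.lt hpM
  have hM0 := ne_zero_of_not_dvd hpM
  by_contra hcon
  push Not at hcon
  let r : Ω → Oo Ω ⧸ mm Ω := fun x =>
    if hx : ‖x‖ ≤ 1 then Ideal.Quotient.mk (mm Ω) ⟨x, hx⟩ else 0
  have hr : ∀ (x : Ω) (hx : ‖x‖ ≤ 1), r x = Ideal.Quotient.mk (mm Ω) ⟨x, hx⟩ := fun x hx => by
    simp only [r, dif_pos hx]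
  set s0 : Finset Ω := insert 0 (nthRootsFinset M (1 : Ω)) with hs0
  have hmem : ∀ x ∈ s0, x = 0 ∨ x ^ M = 1 := by
    intro x hx
    rw [hs0, Finset.mem_insert, mem_nthRootsFinset (Nat.pos_of_ne_zero hM0)] at hx
    exact hx
  have hle : ∀ x ∈ s0, ‖x‖ ≤ 1 := by
    intro x hx
    rcases hmem x hx with rfl | h1
    · rw [norm_zero]
      exact zero_le_one
    · exact (norm_eq_one_of_pow hM0 h1).le
  have hinj : Set.InjOn r s0 := by
    intro x hx y hy hxy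
    rw [hr x (hle x hx), hr y (hle y hy), mk_eq_iff] at hxy
    rcases hmem x hx with rfl | hx1 <;> rcases hmem y hy with rfl | hy1
    · rfl
    · have := (norm_eq_one_of_pow hM0 hy1)
      have h2 : ‖(0 : Ω) - y‖ < 1 := hxy
      rw [zero_sub, norm_neg] at h2
      exact absurd this h2.ne
    · have := (norm_eq_one_of_pow hM0 hx1)
      have h2 : ‖x - (0 : Ω)‖ < 1 := hxy
      rw [sub_zero] at h2
      exact absurd this h2.ne
    · exact root_unique hpp h0.lt hpM hx1 hy1 hxy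
  have hcard : (s0.image r).card = M + 1 := by
    rw [Finset.card_image_of_injOn hinj, hs0, Finset.card_insert_of_notMem, hξ.card_nthRootsFinset]
    rw [mem_nthRootsFinset (Nat.pos_of_ne_zero hM0), zero_pow hM0]
    exact zero_ne_one
  set P : Polynomial (Oo Ω ⧸ mm Ω) :=
    ∑ i ∈ Finset.range n, C (Ideal.Quotient.mk (mm Ω) ⟨c i, (hc i).le⟩) * X ^ Q ^ i with hP
  have hdeg : P.natDegree ≤ Q ^ (n - 1) := by
    refine natDegree_sum_le_of_forall_le _ _ fun i hi => ?_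
    refine (natDegree_C_mul_X_pow_le _ _).trans (Nat.pow_le_pow_right hQ1.le ?_)
    have := Finset.mem_range.1 hi
    omega
  have hlt : Q ^ (n - 1) < Q ^ n := Nat.pow_lt_pow_right hQ1 (by omega)
  have hP0 : P = 0 := by
    refine eq_zero_of_natDegree_lt_card_of_eval_eq_zero' P (s0.image r) ?_ ?_
    · intro y hy
      obtain ⟨x, hx, rfl⟩ := Finset.mem_image.1 hy
      have hlt1 : ‖∑ i ∈ Finset.range n, c i * x ^ Q ^ i‖ < 1 := by
        refine lt_of_le_of_ne ?_ (hcon x (hmem x hx))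
        refine norm_sum_le_one _ _ fun i _ => ?_
        rw [norm_mul, hc, one_mul, norm_pow]
        exact pow_le_one₀ (norm_nonneg _) (hle x hx)
      have h1 : P.eval (r x) = Ideal.Quotient.mk (mm Ω)
          (∑ i ∈ Finset.range n, ⟨c i, (hc i).le⟩ * ⟨x, hle x hx⟩ ^ Q ^ i) := by
        rw [hP, eval_finsetSum, map_sum, hr x (hle x hx)]
        simp
      rw [h1, Ideal.Quotient.eq_zero_iff_mem]
      show ‖((∑ i ∈ Finset.range n, (⟨c i, (hc i).le⟩ : Oo Ω) * ⟨x, hle x hx⟩ ^ Q ^ i : Oo Ω) : Ω)‖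
        < 1
      rw [AddSubmonoidClass.coe_finsetSum]
      exact hlt1
    · rw [hcard, hM1]
      exact hdeg.trans_lt hlt
  have hcoef := congrArg (fun q => Polynomial.coeff q 1) hP0
  simp only [hP, finsetSum_coeff, coeff_C_mul, coeff_X_pow, coeff_zero] at hcoef
  rw [Finset.sum_eq_single 0] at hcoef
  · rw [pow_zero, if_pos rfl, mul_one, Ideal.Quotient.eq_zero_iff_mem] at hcoef
    have h1 : ‖c 0‖ < 1 := hcoef
    exact absurd (hc 0) h1.ne
  · intro i _ hi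
    rw [if_neg, mul_zero]
    exact (Nat.one_lt_pow hi hQ1).ne
  · intro h1
    exact absurd (Finset.mem_range.2 hn) h1

/-- elements fixed by the inertia of `S` have the norms of elements fixed by `S` -/
theorem exists_fixed_norm [IsAlgClosed Ω] [IsGalois k Ω] (h0 : Std p k Ω) {f : ℕ}
    {S : Subgroup Gal(Ω/k)} (hS : IsClosed (S : Set Gal(Ω/k))) (h : ResF p f S) {y : Ω}
    (hy : ∀ σ ∈ inertia k Ω ⊓ S, σ y = y) : ∃ z, (∀ σ ∈ S, σ z = z) ∧ ‖z‖ = ‖y‖ := by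
  have hpp : p.Prime := Fact.out
  by_cases hy0 : y = 0
  · exact ⟨0, fun σ _ => map_zero σ, by rw [hy0]⟩
  obtain ⟨φ, hφS, hφ⟩ := exists_frob h0 hS h
  obtain ⟨n, hn, hφn⟩ : ∃ n, 0 < n ∧ (φ ^ n) y = y := by
    have h1 : IsOpen {τ : Gal(Ω/k) | τ y ∈ ({y} : Set Ω)} := isOpen_apply y _
    obtain ⟨N, hN⟩ := ProfiniteGrp.exist_openNormalSubgroup_sub_open_nhds_of_one h1 (by simp)
    have hfin : Finite (Gal(Ω/k) ⧸ N.toSubgroup) :=
      Subgroup.quotient_finite_of_isOpen N.toSubgroup N.isOpen'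
    refine ⟨N.toSubgroup.index, Nat.pos_of_ne_zero ?_, ?_⟩
    · exact Subgroup.index_ne_zero_of_finite
    · exact hN (Subgroup.pow_index_mem N.toSubgroup φ)
  set Q := p ^ f with hQ
  have hc : ∀ i, ‖(φ ^ i) y / y‖ = 1 := fun i => norm_div_eq_one (h0.isom _ _) hy0
  obtain ⟨b, hb, hbn⟩ := exists_unit_sum (k := k) h0 h.pos hn (fun i => (φ ^ i) y / y) hc
  have hQ1 : 1 < Q := Nat.one_lt_pow h.pos.ne' hpp.one_lt
  have hQn : 1 < Q ^ n := Nat.one_lt_pow hn.ne' hQ1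
  have hM1 : (Q ^ n - 1) + 1 = Q ^ n := Nat.sub_add_cancel hQn.le
  have hpM : ¬ p ∣ Q ^ n - 1 := by
    intro hd
    have h1 : p ∣ (Q ^ n - 1) + 1 := by
      rw [hM1, hQ, ← pow_mul]
      exact dvd_pow_self p (Nat.mul_ne_zero h.pos.ne' hn.ne')
    exact hpp.one_lt.ne' (Nat.dvd_one.1 ((Nat.dvd_add_right hd).1 h1))
  have hφb : ∀ i, (φ ^ i) b = b ^ Q ^ i := by
    intro i
    rcases hb with rfl | hb
    · rw [map_zero, zero_pow (pow_ne_zero _ (by omega))]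
    · exact (hφ.pow h0 i).root h0 hpM hb
  have hbQ : b ^ Q ^ n = b := by
    rw [← hM1, pow_succ]
    rcases hb with rfl | hb
    · rw [mul_zero]
    · rw [hb, one_mul]
  have hσb : ∀ σ ∈ inertia k Ω, σ b = b := by
    intro σ hσ
    rcases hb with rfl | hb
    · rw [map_zero]
    · exact root_of_mem_inertia h0 hσ hpM hb
  have hin := inertia_normal h0.isom
  refine ⟨∑ i ∈ Finset.range n, (φ ^ i) (b * y), ?_, ?_⟩
  · refine fix_of_frob h0 hS h hφS hφ ?_ ?_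
    · rintro σ ⟨hσ, hσS⟩
      rw [map_sum]
      refine Finset.sum_congr rfl fun i _ => ?_
      have h1 : (φ ^ i)⁻¹ * σ * φ ^ i ∈ inertia k Ω ⊓ S := by
        refine ⟨?_, S.mul_mem (S.mul_mem (S.inv_mem (S.pow_mem hφS i)) hσS) (S.pow_mem hφS i)⟩
        have := hin.conj_mem σ hσ (φ ^ i)⁻¹
        rwa [inv_inv] at this
      have h2 : ((φ ^ i)⁻¹ * σ * φ ^ i) (b * y) = b * y := by
        rw [map_mul, hσb _ h1.1, hy _ h1]
      have h3 := congrArg (φ ^ i) h2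
      rwa [AlgEquiv.mul_apply, AlgEquiv.mul_apply, inv_app] at h3
    · rw [map_sum]
      have h1 : ∀ i, φ ((φ ^ i) (b * y)) = (φ ^ (i + 1)) (b * y) := fun i => by
        rw [pow_succ', AlgEquiv.mul_apply]
      simp only [h1]
      have h2 := Finset.sum_range_succ (fun i => (φ ^ i) (b * y)) n
      have h3 := Finset.sum_range_succ' (fun i => (φ ^ i) (b * y)) n
      have h4 : (φ ^ n) (b * y) = b * y := by rw [map_mul, hφb, hbQ, hφn]
      rw [h4] at h2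
      rw [pow_zero, AlgEquiv.one_apply] at h3
      exact add_right_cancel (h3.symm.trans h2)
  · have h1 : ∑ i ∈ Finset.range n, (φ ^ i) (b * y) =
        y * ∑ i ∈ Finset.range n, (φ ^ i) y / y * b ^ Q ^ i := by
      rw [Finset.mul_sum]
      refine Finset.sum_congr rfl fun i _ => ?_
      rw [map_mul, hφb]
      field_simp
    rw [h1, norm_mul, hbn, mul_one]

/-- the norm of an element with finitely many conjugates all of whose conjugates lie in the
orbit of size prime to `q` -/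
theorem value_not_pow [IsAlgClosed Ω] [IsGalois k Ω] (h0 : Std p k Ω) {f : ℕ}
    {S : Subgroup Gal(Ω/k)} (hS : IsClosed (S : Set Gal(Ω/k))) (h : ResF p f S) (q : ℕ)
    [Fact q.Prime] {H : Subgroup Gal(Ω/k)} (hH : IsSyl q (inertia k Ω ⊓ S) H) {ϖ : Ω}
    (hϖ : ∀ σ ∈ S, σ ϖ = ϖ) (hϖ0 : ϖ ≠ 0) (hϖ1 : ‖ϖ‖ ≠ 1)
    (hdisc : ∀ z, z ≠ 0 → (∀ σ ∈ S, σ z = z) → ∃ n : ℤ, ‖z‖ = ‖ϖ‖ ^ n) {x : Ω}
    (hx : ∀ σ ∈ H, σ x = x) : ‖x‖ ^ q ≠ ‖ϖ‖ := by
  classical
  have hqp : q.Prime := Fact.out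
  intro hxq
  have hx0 : x ≠ 0 := by
    rintro rfl
    rw [norm_zero, zero_pow hqp.ne_zero] at hxq
    exact hϖ0 (norm_eq_zero.1 hxq.symm)
  set J : Subgroup Gal(Ω/k) := inertia k Ω ⊓ S with hJ
  have h1 : IsOpen {τ : Gal(Ω/k) | τ x ∈ ({x} : Set Ω)} := isOpen_apply x _
  obtain ⟨N, hN⟩ := ProfiniteGrp.exist_openNormalSubgroup_sub_open_nhds_of_one h1 (by simp)
  have hdvd : ¬ q ∣ (MulAction.stabilizer Gal(Ω/k) x).relIndex J := by
    intro hd
    refine hH.index N.toSubgroup N.isOpen' (hd.trans (Subgroup.relIndex_dvd_of_le_left J ?_))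
    refine sup_le ?_ ?_
    · intro σ hσ
      exact hx σ hσ
    · intro σ hσ
      exact hN hσ
  have hst : MulAction.stabilizer J x = (MulAction.stabilizer Gal(Ω/k) x).subgroupOf J := by
    ext σ
    rfl
  have hidx : (MulAction.orbit J x).ncard = (MulAction.stabilizer Gal(Ω/k) x).relIndex J := by
    rw [← MulAction.index_stabilizer, hst]
    rfl
  rw [← hidx] at hdvd
  set n := (MulAction.orbit J x).ncard with hn
  have hn0 : n ≠ 0 := fun h0 => hdvd (h0 ▸ dvd_zero q)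
  have hfin : (MulAction.orbit J x).Finite := Set.finite_of_ncard_ne_zero hn0
  set O := hfin.toFinset with hO
  have hcard : O.card = n := (Set.ncard_eq_toFinset_card _ hfin).symm
  have hmemO : ∀ y, y ∈ O ↔ ∃ ρ ∈ J, ρ x = y := by
    intro y
    rw [hO, Set.Finite.mem_toFinset]
    constructor
    · rintro ⟨ρ, rfl⟩
      exact ⟨ρ.1, ρ.2, rfl⟩
    · rintro ⟨ρ, hρ, rfl⟩
      exact ⟨⟨ρ, hρ⟩, rfl⟩
  set w := ∏ y ∈ O, y with hw
  have hwfix : ∀ σ ∈ J, σ w = w := by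
    intro σ hσ
    rw [hw, map_prod]
    refine Finset.prod_bij (fun y _ => σ y) ?_ ?_ ?_ ?_
    · intro y hy
      obtain ⟨τ, hτ, rfl⟩ := (hmemO y).1 hy
      exact (hmemO _).2 ⟨σ * τ, J.mul_mem hσ hτ, rfl⟩
    · intro y _ y' _ hyy
      exact σ.injective hyy
    · intro y hy
      obtain ⟨τ, hτ, rfl⟩ := (hmemO y).1 hy
      refine ⟨(σ⁻¹ * τ) x, (hmemO _).2 ⟨σ⁻¹ * τ, J.mul_mem (J.inv_mem hσ) hτ, rfl⟩, ?_⟩
      rw [AlgEquiv.mul_apply, inv_app]
    · intro y _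
      rfl
  have hwn : ‖w‖ = ‖x‖ ^ n := by
    rw [hw, norm_prod, ← hcard, ← Finset.prod_const]
    refine Finset.prod_congr rfl fun y hy => ?_
    obtain ⟨τ, -, rfl⟩ := (hmemO y).1 hy
    exact h0.isom τ x
  have hcop : IsCoprime (n : ℤ) (q : ℤ) :=
    Nat.isCoprime_iff_coprime.2 ((Nat.Prime.coprime_iff_not_dvd hqp).2 hdvd).symm
  obtain ⟨a, b, hab⟩ := hcop
  have hxn0 : ‖x‖ ≠ 0 := norm_ne_zero_iff.2 hx0
  obtain ⟨z, hzS, hzn⟩ := exists_fixed_norm h0 hS h (y := w ^ a * ϖ ^ b) (by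
    intro σ hσ
    rw [map_mul, map_zpow₀, map_zpow₀, hwfix σ hσ, hϖ σ hσ.2])
  have hyn : ‖w ^ a * ϖ ^ b‖ = ‖x‖ := by
    rw [norm_mul, norm_zpow, norm_zpow, hwn, ← hxq, ← zpow_natCast, ← zpow_natCast, ← zpow_mul,
      ← zpow_mul, ← zpow_add₀ hxn0]
    have : (n : ℤ) * a + (q : ℤ) * b = 1 := by linarith
    rw [this, zpow_one]
  rw [hyn] at hzn
  have hz0 : z ≠ 0 := by
    rw [← norm_ne_zero_iff, hzn]
    exact hxn0
  obtain ⟨t, ht⟩ := hdisc z hz0 hzS
  rw [hzn, ← hxq, ← zpow_natCast, ← zpow_mul] at ht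
  have hx1 : ‖x‖ ≠ 1 := by
    intro h1
    rw [h1, one_pow] at hxq
    exact hϖ1 hxq.symm
  have h2 : ‖x‖ ^ (1 : ℤ) = ‖x‖ ^ ((q : ℤ) * t) := by rw [zpow_one]; exact ht
  have h3 : (1 : ℤ) = q * t := zpow_right_injective₀ (norm_pos_iff.2 hx0) hx1 h2
  have h4 : (q : ℤ) ∣ 1 := ⟨t, h3⟩
  have h5 : q ∣ 1 := by exact_mod_cast h4
  exact hqp.one_lt.ne' (Nat.dvd_one.1 h5)

/-- the residue field of the fixed field -/
theorem exists_resF (h0 : Std p k Ω) {S : Subgroup Gal(Ω/k)} (T : Finset Ω)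
    (hT : ∀ a : Ω, (∀ σ ∈ S, σ a = a) → ‖a‖ ≤ 1 → ∃ t ∈ T, Cg a t) : ∃ f, ResF p f S := by
  classical
  have hpp : p.Prime := Fact.out
  let r : Ω → Oo Ω ⧸ mm Ω := fun x =>
    if hx : ‖x‖ ≤ 1 then Ideal.Quotient.mk (mm Ω) ⟨x, hx⟩ else 0
  have hr : ∀ (x : Ω) (hx : ‖x‖ ≤ 1), r x = Ideal.Quotient.mk (mm Ω) ⟨x, hx⟩ := fun x hx => by
    simp only [r, dif_pos hx]
  let R0 : Subring (Oo Ω) :=
    { carrier := {a | ∀ σ ∈ S, σ (a : Ω) = a}
      mul_mem' := fun {a b} ha hb σ hσ => by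
        rw [Subring.coe_mul, map_mul, ha σ hσ, hb σ hσ]
      one_mem' := fun σ _ => by rw [OneMemClass.coe_one, map_one]
      add_mem' := fun {a b} ha hb σ hσ => by
        rw [Subring.coe_add, map_add, ha σ hσ, hb σ hσ]
      zero_mem' := fun σ _ => by rw [ZeroMemClass.coe_zero, map_zero]
      neg_mem' := fun {a} ha σ hσ => by rw [Subring.coe_neg, map_neg, ha σ hσ] }
  let F := R0.map (Ideal.Quotient.mk (mm Ω))
  have hFfin : (F : Set (Oo Ω ⧸ mm Ω)).Finite := by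
    refine Set.Finite.subset (T.image r).finite_toSet ?_
    rintro _ ⟨a, ha, rfl⟩
    obtain ⟨t, ht, hat⟩ := hT a ha a.2
    rw [Finset.mem_coe, Finset.mem_image]
    have ht1 : ‖t‖ ≤ 1 := hat.symm.norm_le a.2
    refine ⟨t, ht, ?_⟩
    rw [hr t ht1, mk_eq_iff]
    exact hat.symm
  have : Finite F := hFfin
  let _ : Fintype F := Fintype.ofFinite F
  let _ : Field F := Fintype.fieldOfDomain F
  have hch : CharP F p := by
    have h1 := charP_res (Ω := Ω) h0.lt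
    rw [CharP.charP_iff_prime_eq_zero hpp]
    apply Subtype.ext
    have h2 : ((p : ℕ) : Oo Ω ⧸ mm Ω) = 0 := CharP.cast_eq_zero _ p
    rw [ZeroMemClass.coe_zero, ← h2]
    rfl
  obtain ⟨n, -, hcard⟩ := FiniteField.card F p
  refine ⟨n, n.pos, ?_, ?_⟩
  · intro a ha hle
    have h1 : Ideal.Quotient.mk (mm Ω) ⟨a, hle⟩ ∈ F := ⟨⟨a, hle⟩, ha, rfl⟩
    have h2 := FiniteField.pow_card (⟨_, h1⟩ : F)
    rw [hcard] at h2
    have h3 := congrArg Subtype.val h2
    rw [SubmonoidClass.coe_pow, ← map_pow, mk_eq_iff] at h3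
    exact h3
  · intro a hle hcg σ hσ
    have hmem : Ideal.Quotient.mk (mm Ω) ⟨a, hle⟩ ∈ F := by
      by_contra hnot
      set x := Ideal.Quotient.mk (mm Ω) (⟨a, hle⟩ : Oo Ω) with hx
      have hxQ : x ^ p ^ (n : ℕ) = x := by
        rw [hx, ← map_pow, mk_eq_iff]
        exact hcg
      set s : Finset (Oo Ω ⧸ mm Ω) := insert x hFfin.toFinset with hs
      have hscard : s.card = p ^ (n : ℕ) + 1 := by
        rw [hs, Finset.card_insert_of_notMem, ← hcard, ← Set.ncard_eq_toFinset_card _ hFfin,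
          ← Nat.card_coe_set_eq, Nat.card_eq_fintype_card]
        · rfl
        · rw [Set.Finite.mem_toFinset]
          exact hnot
      have hdeg : (X ^ p ^ (n : ℕ) - X : Polynomial (Oo Ω ⧸ mm Ω)).natDegree ≤ p ^ (n : ℕ) := by
        refine (natDegree_sub_le _ _).trans (max_le ?_ ?_)
        · rw [natDegree_X_pow]
        · rw [natDegree_X]
          exact Nat.one_le_pow _ _ hpp.pos
      have hzero := eq_zero_of_natDegree_lt_card_of_eval_eq_zero'
        (X ^ p ^ (n : ℕ) - X : Polynomial (Oo Ω ⧸ mm Ω)) s (by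
          intro y hy
          rw [eval_sub, eval_pow, eval_X, sub_eq_zero]
          rw [hs, Finset.mem_insert, Set.Finite.mem_toFinset] at hy
          rcases hy with rfl | hy
          · exact hxQ
          · have h2 := FiniteField.pow_card (⟨y, hy⟩ : F)
            rw [hcard] at h2
            exact congrArg Subtype.val h2) (by rw [hscard]; omega)
      have h1 := congrArg (fun q => Polynomial.coeff q (p ^ (n : ℕ))) hzero
      simp only [coeff_sub, coeff_X_pow, if_true, coeff_zero] at h1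
      rw [coeff_X, if_neg, sub_zero] at h1
      · exact one_ne_zero h1
      · exact (Nat.one_lt_pow n.pos.ne' hpp.one_lt).ne
    obtain ⟨b, hb, hba⟩ := hmem
    rw [mk_eq_iff] at hba
    have h1 := hba.map h0 σ
    rw [hb σ hσ] at h1
    exact h1.symm.trans hba

end P025H281
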